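import Vale.Agent.Lib.P310.WL

/-!
# XOR systems of an alternating computation

A system has tokens `(i, r)` (a class `i` and a value `r`), families of cuts (each with two input
members and an output member that is their sum), and gates. Every gate carries, for each token, a
chain of XOR constraints; the graph has a vertex for each local assignment of each constraint.
-/

namespace Vale.Agent.Lib.P310.FC

/-- A token: a class and a value. -/
abbrev Tok (ρ : ℕ) (V : Type) : Type := Fin ρ × V

/-- The data of a system: the last family is the root family. A gate has an optional bottom cut (a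
family and a member: `some b` is an input member, `none` the output member), a top cut (an input
member), a translation, a base bit vector for each token, and one gate `gt` is the twisted one. -/
structure Sys (ρ : ℕ) (V : Type) where
  nF : ℕ
  nG : ℕ
  m : ℕ
  m_pos : 0 < m
  bot : Fin nG → Option (Fin (nF + 1) × Option Bool)
  top : Fin nG → Fin (nF + 1) × Bool
  lam : Fin nG → Fin ρ → V
  u : Fin nG → Fin ρ → V → Fin m → ZMod 2
  gt : Fin nG

variable {ρ : ℕ} {V : Type}

/-- The constraints: position `l` of the chain of a token at a gate, the transfer constraint of a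
token at a gate, and the sum constraint of a token at a family. -/
inductive Piece (S : Sys ρ V) : Type
  | link (g : Fin S.nG) (c : Tok ρ V) (l : Fin (2 * ρ * S.m))
  | tr (g : Fin S.nG) (c : Tok ρ V)
  | con (f : Fin S.nF) (c : Tok ρ V)

noncomputable instance (S : Sys ρ V) : DecidableEq (Piece S) := Classical.decEq _

/-- The variables: cut variables, the top variable of a chain, the inner variables of a chain and
the bit variables of a gate. -/
inductive XVar (S : Sys ρ V) : Type
  | cut (f : Fin (S.nF + 1)) (μ : Option Bool) (c : Tok ρ V)
  | top (g : Fin S.nG) (c : Tok ρ V)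
  | mid (g : Fin S.nG) (c : Tok ρ V) (l : Fin (2 * ρ * S.m))
  | bit (g : Fin S.nG) (l : Fin (2 * ρ * S.m))

namespace Sys

variable (S : Sys ρ V)

/-- The coefficient of the bit variable at position `l` of the chain of token `c`: the base vector
is repeated `2 * ρ` times. -/
def v (g : Fin S.nG) (c : Tok ρ V) (l : Fin (2 * ρ * S.m)) : ZMod 2 :=
  S.u g c.1 c.2 ⟨l.val % S.m, Nat.mod_lt _ S.m_pos⟩

/-- The twist: one on the tokens of class `0` of the twisted gate. -/
def twist (g : Fin S.nG) (c : Tok ρ V) : ZMod 2 :=
  if g = S.gt ∧ c.1.val = 0 then 1 else 0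

/-- The translation of a token by a gate. -/
def shift [Add V] (g : Fin S.nG) (c : Tok ρ V) : Tok ρ V := (c.1, c.2 + S.lam g c.1)

/-- The entry for the bottom cut variable. -/
def botEntry (g : Fin S.nG) (c : Tok ρ V) (α : ZMod 2) : List (XVar S × ZMod 2) :=
  match S.bot g with
  | none => []
  | some p => [(XVar.cut p.1 p.2 c, α)]

/-- The variable on the right of a position of a chain. -/
def rightVar (g : Fin S.nG) (c : Tok ρ V) (l : Fin (2 * ρ * S.m)) : XVar S :=
  if h : l.val + 1 < 2 * ρ * S.m then XVar.mid g c ⟨l.val + 1, h⟩ else XVar.top g c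

/-- The assignment of the variables of a constraint given by its two free values `α`, `β`; the
parameter `b` switches the twist on. -/
def assign [Add V] (b : ZMod 2) : Piece S → ZMod 2 → ZMod 2 → List (XVar S × ZMod 2)
  | .link g c l, α, β =>
      (XVar.bit g l, β) ::
        ((if l.val = 0 then S.botEntry g c α else [(XVar.mid g c l, α)]) ++
          [(S.rightVar g c l, α + S.v g c l * β + (if l.val = 0 then b * S.twist g c else 0))])
  | .tr g c, α, β =>
      S.botEntry g c α ++
        [(XVar.cut (S.top g).1 (some (S.top g).2) (S.shift g c), β), (XVar.top g c, α + β)]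
  | .con f c, α, β =>
      [(XVar.cut f.castSucc (some false) c, α), (XVar.cut f.castSucc (some true) c, β),
        (XVar.cut f.castSucc none c, α + β)]

/-- The constraints whose first free value must vanish: those that contain a missing bottom. -/
def flagged : Piece S → Prop
  | .link g _ l => l.val = 0 ∧ S.bot g = none
  | .tr g _ => S.bot g = none
  | .con _ _ => False

/-- The top cut of a gate. -/
def topCut (g : Fin S.nG) : Fin (S.nF + 1) × Option Bool := ((S.top g).1, some (S.top g).2)

/-- A valuation `s` (one value per class) passes a gate if the base vectors of its tokens add up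
to zero. -/
def InA (g : Fin S.nG) (s : Fin ρ → V) : Prop := ∀ q, ∑ i, S.u g i (s i) q = 0

/-- The derivable facts: a fact is a cut and a valuation. A gate other than the twisted one derives
its top cut at the translated valuation from its bottom cut (if it has one); the sum member of a
family is derived from its two input members. -/
inductive Der [Add V] : Fin (S.nF + 1) × Option Bool → (Fin ρ → V) → Prop
  | gate (g : Fin S.nG) (hg : g ≠ S.gt) (s : Fin ρ → V) (hs : S.InA g s)
      (ha : ∀ p, S.bot g = some p → Der p s) : Der (S.topCut g) (fun i => s i + S.lam g i)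
  | conj (f : Fin S.nF) (s : Fin ρ → V) (h₀ : Der (f.castSucc, some false) s)
      (h₁ : Der (f.castSucc, some true) s) : Der (f.castSucc, none) s

end Sys

/-- The equivalence of the constraints with a sum type. -/
def pieceEquiv (S : Sys ρ V) :
    ((Fin S.nG × Tok ρ V × Fin (2 * ρ * S.m)) ⊕ (Fin S.nG × Tok ρ V) ⊕ (Fin S.nF × Tok ρ V)) ≃
      Piece S where
  toFun
    | .inl x => .link x.1 x.2.1 x.2.2
    | .inr (.inl x) => .tr x.1 x.2
    | .inr (.inr x) => .con x.1 x.2
  invFun
    | .link g c l => .inl (g, c, l)
    | .tr g c => .inr (.inl (g, c))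
    | .con f c => .inr (.inr (f, c))
  left_inv := by
    rintro (x | x | x) <;> rfl
  right_inv := by
    rintro (_ | _ | _) <;> rfl

noncomputable instance [Fintype V] [DecidableEq V] (S : Sys ρ V) : Fintype (Piece S) :=
  Fintype.ofEquiv _ (pieceEquiv S)

section Graph

variable [AddCommGroup V] [Fintype V] [DecidableEq V] (S : Sys ρ V)

/-- The number of constraints. -/
noncomputable def numPieces : ℕ := Fintype.card (Piece S)

/-- An explicit numbering of the constraints. -/
class Numbered (S : Sys ρ V) where
  nu : Piece S ≃ Fin (numPieces S)

/-- A local assignment: a constraint and its two free values. -/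
abbrev Elem : Type := Piece S × ZMod 2 × ZMod 2

/-- Two local assignments are adjacent if they belong to different constraints, which have a common
variable and agree on all common variables. -/
def ElemAdj (b : ZMod 2) (x y : Elem S) : Prop :=
  x.1 ≠ y.1 ∧
    (∃ z w w', (z, w) ∈ S.assign b x.1 x.2.1 x.2.2 ∧ (z, w') ∈ S.assign b y.1 y.2.1 y.2.2) ∧
    ∀ z w w', (z, w) ∈ S.assign b x.1 x.2.1 x.2.2 → (z, w') ∈ S.assign b y.1 y.2.1 y.2.2 → w = w'

open Classical in
/-- The number coding a local assignment: its constraint, and whether it violates the flag. -/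
noncomputable def elemCode [Numbered S] (x : Elem S) : ℕ :=
  2 * (Numbered.nu x.1 : Fin (numPieces S)).val + (if S.flagged x.1 ∧ x.2.1 ≠ 0 then 1 else 0)

/-- The number of pendant leaves of a local assignment. -/
noncomputable def leafCount [Numbered S] (x : Elem S) : ℕ :=
  (elemCode S x + 1) * (4 * numPieces S + 1)

/-- Vertices: a local assignment (second component `none`) or a possible leaf at it. -/
abbrev Vtx : Type := Elem S × Option (Fin (2 * numPieces S * (4 * numPieces S + 1)))

/-- The graph of a system, with the twist switched on if `b = 1`. -/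
noncomputable def altGraph [Numbered S] (b : ZMod 2) : SimpleGraph (Vtx S) where
  Adj x y :=
    match x.2, y.2 with
    | none, none => ElemAdj S b x.1 y.1
    | none, some i => x.1 = y.1 ∧ i.val < leafCount S x.1
    | some i, none => x.1 = y.1 ∧ i.val < leafCount S y.1
    | some _, some _ => False
  symm := ⟨by
    rintro ⟨e, (_ | i)⟩ ⟨e', (_ | j)⟩ h
    · exact ⟨fun h' => h.1 h'.symm, by
        obtain ⟨z, w, w', h1, h2⟩ := h.2.1
        exact ⟨z, w', w, h2, h1⟩, fun z w w' h1 h2 => (h.2.2 z w' w h2 h1).symm⟩
    · exact ⟨h.1.symm, h.1 ▸ h.2⟩
    · exact ⟨h.1.symm, h.1 ▸ h.2⟩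
    · exact h⟩
  loopless := ⟨by
    rintro ⟨e, (_ | i)⟩ h
    · exact h.1 rfl
    · exact h⟩

end Graph

end Vale.Agent.Lib.P310.FC
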