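import Vale.Agent.Lib.P310.Full.Core.Root

/-!
# Adjusting the cuts of a gate to the forced values
-/

namespace Vale.Agent.Lib.P310.FC

open Function

variable {ρ : ℕ} {V : Type} [AddCommGroup V] [Module (ZMod 2) V] [Fintype V] [DecidableEq V]
  {S : Sys ρ V} [Numbered S] {s₀ : Fin ρ → V} {gR : Fin S.nG} {pa : Fin (S.nF + 1) × Option Bool}
  {Code : Set (Fin ρ → V)}

/-- The forced value at an optional cut. -/
noncomputable def wantO (Q : Finset (Piece S)) (θ : Th S)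
    (o : Option (Fin (S.nF + 1) × Option Bool)) (c : Tok ρ V) : ZMod 2 :=
  match o with
  | none => 0
  | some p => want Q θ p c

/-- Set a cut at a token to its forced value. -/
lemma Wf.adjust (hW : Wf S s₀ gR pa Code) {Q Q' : Finset (Piece S)} (hQ : Q.card ≤ ρ)
    (hsub : Q' ⊆ Q) {θ θ₁ : Th S} (hT : Truth Q θ) {p : Fin (S.nF + 1) × Option Bool}
    {tok : Tok ρ V} (hθ : θ₁.chiV p tok = θ.chiV p tok)
    (hF : p.1 = Fin.last S.nF → want Q θ p tok ≠ θ.chiV p tok →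
      ∀ l, Piece.link S.gt tok l ∉ Q') :
    ∃ θ₂ : Th S, Keep Q' θ₁ θ₂ ∧ θ₂.Y = θ₁.Y ∧ (∀ p₂ c, p₂.1 ≠ p.1 → θ₂.chiV p₂ c = θ₁.chiV p₂ c) ∧
      (∀ p₂ (c : Tok ρ V), c.1 ≠ tok.1 → θ₂.chiV p₂ c = θ₁.chiV p₂ c) ∧
      θ₂.chiV p tok = want Q θ p tok := by
  obtain ⟨f, μ⟩ := p
  obtain ⟨i, r⟩ := tok
  refine hW.setVal (want Q θ (f, μ) (i, r)) θ₁ (fun hne => ?_)
  rw [hθ] at hne
  obtain ⟨⟨s, hs⟩, hnp⟩ := hW.want_ne hQ hT hne
  refine ⟨fun z₁ h₁ z₂ h₂ hc₁ hc₂ => hs.classUniq hQ (hsub h₁) (hsub h₂) hc₁ hc₂,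
    fun hp => hnp (hp.mono hsub), fun hf => hF hf hne⟩

/-- Set an optional bottom cut at a token to its forced value. -/
lemma Wf.adjustBot (hW : Wf S s₀ gR pa Code) {Q Q' : Finset (Piece S)} (hQ : Q.card ≤ ρ)
    (hsub : Q' ⊆ Q) {θ θ₁ : Th S} (hT : Truth Q θ) (g : Fin S.nG) {tok : Tok ρ V}
    (hθ : ∀ p c, θ₁.chiV p c = θ.chiV p c) :
    ∃ θ₂ : Th S, Keep Q' θ₁ θ₂ ∧ θ₂.Y = θ₁.Y ∧
      (∀ p₂ c, (∀ p, S.bot g = some p → p₂.1 ≠ p.1) → θ₂.chiV p₂ c = θ₁.chiV p₂ c) ∧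
      θ₂.chiO (S.bot g) tok = wantO Q θ (S.bot g) tok := by
  cases hb : S.bot g with
  | none => exact ⟨θ₁, Keep.refl _ _, rfl, fun _ _ _ => rfl, rfl⟩
  | some p =>
    obtain ⟨θ₂, h1, h2, h3, -, h5⟩ := hW.adjust hQ hsub hT (hθ p tok)
      (fun hf => absurd hf (hW.bot_ne_last g p hb))
    exact ⟨θ₂, h1, h2, fun p₂ c h => h3 p₂ c (h p rfl), h5⟩

/-- The adjustment of both cuts of a gate other than the twisted one. -/
lemma Wf.finish_gate (hW : Wf S s₀ gR pa Code) {Q Q' : Finset (Piece S)} (hQ : Q.card ≤ ρ)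
    (hsub : Q' ⊆ Q) (hlt : Q'.card < ρ) {θ θ₀ : Th S} (hT : Truth Q θ) (hk₀ : Keep Q' θ θ₀)
    (hχ : ∀ p c, θ₀.chiV p c = θ.chiV p c) {g : Fin S.nG} (hg : g ≠ S.gt) {c' : Tok ρ V}
    {e : Piece S} (hecls : cls e = c'.1)
    (helnk : ∀ p tok, Lnk e p tok → (S.bot g = some p ∧ tok = c') ∨
      (p = S.topCut g ∧ tok = S.shift g c')) :
    ∃ θ' : Th S, θ'.Y g = θ₀.Y g ∧ θ'.chiO (S.bot g) c' = wantO Q θ (S.bot g) c' ∧
      θ'.chiV (S.topCut g) (S.shift g c') = want Q θ (S.topCut g) (S.shift g c') ∧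
      (∀ e' ∈ Q', θ'.off e' = θ.off e') ∧
      (∀ g₂ c l, Piece.link g₂ c l ∈ Q' → θ'.D g₂ c = θ.D g₂ c) ∧
      Truth (insert e Q') θ' := by
  classical
  set w := want Q θ (S.topCut g) (S.shift g c') with hw
  by_cases hF : (S.top g).1 = Fin.last S.nF ∧ w ≠ θ.chiV (S.topCut g) (S.shift g c') ∧
      ∃ lz, Piece.link S.gt (S.shift g c') lz ∈ Q'
  · -- the pebble on the twisted gate must be repaired
    obtain ⟨htop, hne, lz, hz⟩ := hF
    have hgR : g = gR := (hW.top_last g htop).resolve_left hg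
    subst hgR
    obtain ⟨⟨s, hs⟩, -⟩ := hW.want_ne hQ hT hne
    rw [hW.shift_gR] at hs hz hne
    rw [hW.topCut_gR] at hs hne
    obtain ⟨θ', h1, h2, h3, h4, -⟩ := hW.setRF hQ hsub hs hz θ₀
    refine ⟨θ', h4 _ hg, ?_, ?_, ?_, ?_, ?_⟩
    · rw [hW.gR_bot]
      rfl
    · rw [hw, hW.shift_gR, hW.topCut_gR]
      have h5 : θ'.chiV (rootCut S) c' = θ₀.chiV (rootCut S) c' + 1 := h3
      have h6 : θ₀.chiV (rootCut S) c' = θ.chiV (Fin.last S.nF, some false) c' := hχ _ _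
      show θ'.chiV (rootCut S) c' = _
      rw [h5, h6]
      have key : ∀ a b : ZMod 2, a ≠ b → b + 1 = a := by decide
      have hw2 : w = want Q θ (Fin.last S.nF, some false) c' := by
        rw [hw, hW.shift_gR, hW.topCut_gR]
      rw [hw2] at hne
      exact key _ _ hne
    · intro e' he'
      rw [h1 e' he', hk₀.off he']
    · intro g₂ c l hl
      rw [h2 g₂ c l hl, hk₀.D hl]
    · obtain ⟨j, hj, hm⟩ := missing_class hQ hsub hlt hs hz rfl
      refine truth_of_missing (j := j) ?_ θ'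
      intro e' he'
      rcases Finset.mem_insert.mp he' with rfl | he'
      · rw [hecls]
        exact hj.symm
      · exact hm e' he'
  · -- no repair is needed
    obtain ⟨θ₁, h1, h2, h3, h4⟩ := hW.adjustBot (θ₁ := θ₀) hQ hsub hT g (tok := c') hχ
    have htopfam : ∀ p, S.bot g = some p → (S.topCut g).1 ≠ p.1 :=
      fun p hp => (hW.fam g p hp).symm
    have htop₁ : θ₁.chiV (S.topCut g) (S.shift g c') = θ.chiV (S.topCut g) (S.shift g c') := by
      rw [h3 _ _ htopfam, hχ]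
    obtain ⟨θ₂, h5, h6, h7, -, h9⟩ := hW.adjust (θ₁ := θ₁) hQ hsub hT htop₁ (by
      intro hf hne l hl
      exact hF ⟨hf, hne, l, hl⟩)
    have hkeep : Keep Q' θ θ₂ := hk₀.trans (h1.trans h5)
    have hbot₂ : θ₂.chiO (S.bot g) c' = wantO Q θ (S.bot g) c' := by
      rw [← h4]
      cases hb : S.bot g with
      | none => rfl
      | some p =>
        simp only [Th.chiO]
        exact h7 p c' (fun h => hW.fam g p hb h)
    refine ⟨θ₂, ?_, hbot₂, h9, fun e' he' => hkeep.off he', fun g₂ c l hl => hkeep.D hl, ?_⟩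
    · rw [h6, h2]
    · refine truth_of_keep hT hsub hkeep.pin ?_
      intro p tok s hl hc
      rcases helnk p tok hl with ⟨hb, rfl⟩ | ⟨rfl, rfl⟩
      · rw [← hW.want_eq hQ θ hc]
        rw [hb] at hbot₂
        exact hbot₂
      · rw [← hW.want_eq hQ θ hc]
        exact h9

/-- The extension to a transfer constraint at a gate other than the twisted one. -/
lemma Wf.ext_tr (hW : Wf S s₀ gR pa Code) {Q : Finset (Piece S)} (hQ : Q.card ≤ ρ) {θ : Th S}
    (hinv : Inv Q θ) {g : Fin S.nG} (hg : g ≠ S.gt) (c' : Tok ρ V) :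
    ∃ ω : ZMod 2 × ZMod 2, ∀ Q', Q' ⊆ Q → Q'.card < ρ → ∃ θ' : Th S,
      Inv (insert (Piece.tr g c') Q') θ' ∧ θ'.off (Piece.tr g c') = ω ∧
      ∀ e' ∈ Q', θ'.off e' = θ.off e' := by
  refine ⟨(wantO Q θ (S.bot g) c', want Q θ (S.topCut g) (S.shift g c')), fun Q' hsub hlt => ?_⟩
  obtain ⟨θ', -, h2, h3, h4, h5, h6⟩ := hW.finish_gate hQ hsub hlt hinv.2 (Keep.refl _ _)
    (fun _ _ => rfl) hg (c' := c') (e := Piece.tr g c') rfl (fun p tok hl => hl)
  refine ⟨θ', ⟨fun g₂ c l hl => ?_, h6⟩, ?_, h4⟩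
  · rcases Finset.mem_insert.mp hl with hl | hl
    · simp at hl
    · rw [h5 _ _ _ hl]
      exact hinv.1 _ _ _ (hsub hl)
  · simp only [Th.off, h2, h3]

/-- A completion of the bottom of the twisted gate is impossible when a pebble sits on its chain
and the root is completed. -/
lemma Wf.no_comp_pa (hW : Wf S s₀ gR pa Code) (hnd : ¬ S.Der pa s₀) {Q : Finset (Piece S)}
    (hQ : Q.card ≤ ρ) {tok : Tok ρ V} {s₁ : Fin ρ → V} (hc : CompW Q (rootCut S) tok s₁)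
    {lz : Fin (2 * ρ * S.m)} (hz : Piece.link S.gt tok lz ∈ Q) {s : Fin ρ → V}
    (hs : CompW Q pa tok s) : False := by
  classical
  have hs₁ : s₁ = s₀ := hW.der_root hc.1 rfl
  subst hs₁
  obtain ⟨E, hE⟩ := hc.pick
  apply hnd
  suffices h : s = s₁ by
    rw [← h]
    exact hs.1
  funext j
  by_cases hj : j = tok.1
  · subst hj
    rw [hs.2.1, hc.2.1]
  · obtain ⟨e₂, he₂, hl₂⟩ := hs.2.2 j hj
    have hc₂ := lnk_class hl₂
    simp only at hc₂
    have he₂E : e₂ = E j := by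
      rcases shape_of_pick hQ hz rfl hE he₂ with rfl | ⟨j', hj', rfl⟩
      · exact absurd hc₂ hj
      · rw [cls_pick hE hj'] at hc₂
        rw [hc₂]
    subst he₂E
    have hlR := (hE j hj).2
    cases hEj : E j with
    | link g c l =>
      rw [hEj] at hlR hl₂
      exfalso
      rcases hlR with ⟨h3, -⟩ | ⟨hg, h3, -⟩
      · exact hW.bot_ne_last _ _ h3 rfl
      · have h4 : (S.top g).1 = Fin.last S.nF := (congrArg Prod.fst h3).symm
        have hgR : g = gR := (hW.top_last g h4).resolve_left hg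
        subst hgR
        rcases hl₂ with ⟨h5, -⟩ | ⟨-, h5, -⟩
        · rw [hW.gR_bot] at h5
          simp at h5
        · have h6 := hW.bot_ne_last _ _ hW.gt_bot
          rw [h5, hW.topCut_gR] at h6
          exact h6 rfl
    | tr g c =>
      rw [hEj] at hlR hl₂
      rcases hlR with ⟨h3, -⟩ | ⟨h3, h4⟩
      · exact absurd rfl (hW.bot_ne_last _ _ h3)
      · rcases hl₂ with ⟨h5, h6⟩ | ⟨h5, -⟩
        · have h7 : (S.top g).1 = Fin.last S.nF := (congrArg Prod.fst h3).symm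
          rcases hW.top_last g h7 with rfl | rfl
          · rw [hW.shift_gt] at h4
            have h8 := h6.trans h4.symm
            simpa using h8
          · rw [hW.gR_bot] at h5
            simp at h5
        · exfalso
          have h6 := hW.bot_ne_last _ _ hW.gt_bot
          rw [h5, ← h3] at h6
          exact h6 rfl
    | con f c =>
      rw [hEj] at hlR
      exact absurd hlR.1.symm (Fin.castSucc_lt_last f).ne

/-- The extension to a transfer constraint at the twisted gate. -/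
lemma Wf.ext_tr_gt (hW : Wf S s₀ gR pa Code) (hnd : ¬ S.Der pa s₀) {Q : Finset (Piece S)}
    (hQ : Q.card ≤ ρ) {θ : Th S} (hinv : Inv Q θ) (c' : Tok ρ V) :
    ∃ ω : ZMod 2 × ZMod 2, ∀ Q', Q' ⊆ Q → Q'.card < ρ → ∃ θ' : Th S,
      Inv (insert (Piece.tr S.gt c') Q') θ' ∧ θ'.off (Piece.tr S.gt c') = ω ∧
      ∀ e' ∈ Q', θ'.off e' = θ.off e' := by
  classical
  have hpa : pa.1 ≠ Fin.last S.nF := hW.bot_ne_last _ _ hW.gt_bot
  have hfam : pa.1 ≠ (rootCut S).1 := hpa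
  have hoff : ∀ θ' : Th S, θ'.off (Piece.tr S.gt c') =
      (θ'.chiV pa c', θ'.chiV (rootCut S) c') := by
    intro θ'
    simp only [Th.off, hW.gt_bot, Th.chiO, hW.shift_gt, hW.topCut_gt]
    rfl
  have hlnk : ∀ p tok, Lnk (Piece.tr S.gt c') p tok → (p = pa ∧ tok = c') ∨
      (p = rootCut S ∧ tok = c') := by
    intro p tok hl
    rcases hl with ⟨h1, rfl⟩ | ⟨h1, rfl⟩
    · rw [hW.gt_bot] at h1
      exact Or.inl ⟨(Option.some.inj h1).symm, rfl⟩
    · rw [hW.topCut_gt] at h1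
      exact Or.inr ⟨h1, hW.shift_gt c'⟩
  set wR := want Q θ (rootCut S) c' with hwR
  -- the normal case: the bottom gets value `w`
  have normal : ∀ Q', Q' ⊆ Q → ∀ w : ZMod 2, (∀ s, CompW Q pa c' s → w = want Q θ pa c') →
      (w ≠ θ.chiV pa c' → ClassU Q' c'.1 ∧ ¬ Pin Q' pa c') →
      (wR ≠ θ.chiV (rootCut S) c' → ∀ l, Piece.link S.gt c' l ∉ Q') →
      ∃ θ' : Th S, Inv (insert (Piece.tr S.gt c') Q') θ' ∧
        θ'.off (Piece.tr S.gt c') = (w, wR) ∧ ∀ e' ∈ Q', θ'.off e' = θ.off e' := by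
    intro Q' hsub w hw hw' hF
    obtain ⟨f, μ⟩ := pa
    obtain ⟨i, r⟩ := c'
    obtain ⟨θ₁, h1, h2, h3, -, h5⟩ := hW.setVal (Q' := Q') (f := f) (μ := μ) (i := i) (r' := r)
      w θ (fun hne => by
        obtain ⟨h6, h7⟩ := hw' hne
        refine ⟨h6, h7, fun hf => absurd hf hpa⟩)
    obtain ⟨θ₂, h6, h7, h8, -, h10⟩ := hW.adjust (θ₁ := θ₁) hQ hsub hinv.2
      (p := rootCut S) (tok := (i, r)) (h3 _ _ (fun h => hfam h.symm)) (fun _ hne => hF hne)
    have hkeep : Keep Q' θ θ₂ := h1.trans h6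
    have hbot : θ₂.chiV (f, μ) (i, r) = w := by
      rw [h8 _ _ hfam, h5]
    refine ⟨θ₂, inv_of_keep hinv hsub hkeep (fun _ _ _ h => by simp at h) ?_, ?_,
      fun e' he' => hkeep.off he'⟩
    · intro p tok s hl hc
      rcases hlnk p tok hl with ⟨rfl, rfl⟩ | ⟨rfl, rfl⟩
      · rw [← hW.want_eq hQ θ hc, hbot]
        exact hw s hc
      · rw [← hW.want_eq hQ θ hc]
        exact h10
    · rw [hoff, hbot, h10]
  by_cases hw0 : wR = θ.chiV (rootCut S) c'
  · -- the root does not change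
    refine ⟨(want Q θ pa c', wR), fun Q' hsub _ => ?_⟩
    refine normal Q' hsub _ (fun _ _ => rfl) (fun hne => ?_) (fun hne => absurd hw0 hne)
    obtain ⟨⟨s, hs⟩, hnp⟩ := hW.want_ne hQ hinv.2 hne
    exact ⟨fun z₁ h₁ z₂ h₂ hc₁ hc₂ => hs.classUniq hQ (hsub h₁) (hsub h₂) hc₁ hc₂,
      fun hp => hnp (hp.mono hsub)⟩
  obtain ⟨⟨s₁, hs₁⟩, -⟩ := hW.want_ne hQ hinv.2 hw0
  by_cases hz : ∃ lz, Piece.link S.gt c' lz ∈ Q
  · obtain ⟨lz, hz⟩ := hz
    have hpin : Pin Q pa c' := ⟨_, hz, Or.inl ⟨hW.gt_bot, rfl⟩⟩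
    refine ⟨(θ.chiV pa c' + rb lz, wR), fun Q' hsub hlt => ?_⟩
    by_cases hzQ : Piece.link S.gt c' lz ∈ Q'
    · -- the pebble stays and must be repaired
      obtain ⟨θ', h1, h2, h3, -, h5⟩ := hW.setRF hQ hsub hs₁ hzQ θ
      refine ⟨θ', ⟨fun g c l hl => ?_, ?_⟩, ?_, h1⟩
      · rcases Finset.mem_insert.mp hl with hl | hl
        · simp at hl
        · rw [h2 _ _ _ hl]
          exact hinv.1 _ _ _ (hsub hl)
      · obtain ⟨j, hj, hm⟩ := missing_class hQ hsub hlt hs₁ hzQ rfl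
        refine truth_of_missing (j := j) ?_ θ'
        intro e' he'
        rcases Finset.mem_insert.mp he' with rfl | he'
        · exact hj.symm
        · exact hm e' he'
      · rw [hoff, h5, h3]
        congr 1
        have key : ∀ a b : ZMod 2, a ≠ b → b + 1 = a := by decide
        exact key _ _ hw0
    · -- the pebble leaves
      have hno : ∀ e' ∈ Q', cls e' ≠ c'.1 := by
        intro e' he' hce
        exact hzQ ((hs₁.classUniq hQ (hsub he') hz hce rfl) ▸ he')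
      refine normal Q' hsub _ (fun s hs => (hW.no_comp_pa hnd hQ hs₁ hz hs).elim) (fun _ => ?_)
        (fun _ l hl => hno _ hl rfl)
      refine ⟨fun z₁ h₁ _ _ hc₁ _ => absurd hc₁ (hno _ h₁), ?_⟩
      rintro ⟨e', he', hl⟩
      exact hno _ he' (lnk_class hl).symm
  · -- no pebble on the chain
    refine ⟨(want Q θ pa c', wR), fun Q' hsub _ => ?_⟩
    refine normal Q' hsub _ (fun _ _ => rfl) (fun hne => ?_)
      (fun _ l hl => hz ⟨l, hsub hl⟩)
    obtain ⟨⟨s, hs⟩, hnp⟩ := hW.want_ne hQ hinv.2 hne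
    exact ⟨fun z₁ h₁ z₂ h₂ hc₁ hc₂ => hs.classUniq hQ (hsub h₁) (hsub h₂) hc₁ hc₂,
      fun hp => hnp (hp.mono hsub)⟩

end Vale.Agent.Lib.P310.FC
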