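import Vale.Agent.Lib.P310.Full.Core.Link

/-!
# The main theorem on systems: `ρ`-WL equivalence decides derivability
-/

namespace Vale.Agent.Lib.P310.FC

open Function

variable {ρ : ℕ} {V : Type} [AddCommGroup V] [Module (ZMod 2) V] [Fintype V] [DecidableEq V]
  {S : Sys ρ V} [Numbered S] {s₀ : Fin ρ → V} {gR : Fin S.nG} {pa : Fin (S.nF + 1) × Option Bool}
  {Code : Set (Fin ρ → V)}

/-- The extension to a position of a chain. -/
lemma Wf.ext_link (hW : Wf S s₀ gR pa Code) (hnd : ¬ S.Der pa s₀) {Q : Finset (Piece S)}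
    (hQ : Q.card ≤ ρ) {θ : Th S} (hinv : Inv Q θ) (g : Fin S.nG) (c' : Tok ρ V)
    (l : Fin (2 * ρ * S.m)) :
    ∃ ω : ZMod 2 × ZMod 2, ∀ Q', Q' ⊆ Q → Q'.card < ρ → ∃ θ' : Th S,
      Inv (insert (Piece.link g c' l) Q') θ' ∧ θ'.off (Piece.link g c' l) = ω ∧
      ∀ e' ∈ Q', θ'.off e' = θ.off e' := by
  classical
  by_cases htouch : ∃ l₂, Piece.link g c' l₂ ∈ Q
  · obtain ⟨l₂, hl₂⟩ := htouch
    refine ⟨θ.off (Piece.link g c' l), fun Q' hsub _ => ⟨θ, ⟨fun g₃ c₃ l₃ h => ?_, ?_⟩, rfl,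
      fun _ _ => rfl⟩⟩
    · rcases Finset.mem_insert.mp h with h | h
      · simp only [Piece.link.injEq] at h
        obtain ⟨rfl, rfl, -⟩ := h
        exact hinv.1 _ _ _ hl₂
      · exact hinv.1 _ _ _ (hsub h)
    · intro p s hd hp
      refine hinv.2 p s hd fun i => ?_
      obtain ⟨e₂, he₂, hl⟩ := hp i
      rcases Finset.mem_insert.mp he₂ with rfl | h
      · exact ⟨_, hl₂, hl⟩
      · exact ⟨e₂, hsub h, hl⟩
  · set Dt := wantTop Q θ g c' + (θ.tot g c' + S.twist g c') with hDt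
    refine ⟨(wantO Q θ (S.bot g) c' + θ.pre g c' l + (if l.val = 0 then 0 else S.twist g c') +
      Dt * rb l, θ.Y g l), fun Q' hsub hlt => ?_⟩
    by_cases hD : Dt = 0
    · exact hW.finish_link hQ hsub hlt hinv (Keep.refl _ _) (fun _ _ => rfl) hDt rfl
        (by rw [hD]; simp) (by rw [hD]; simp)
    have hD1 : Dt = 1 := zmod2_eq_one_of_ne hD
    by_cases hdep : ∃ T : Finset (Tok ρ V), (∀ c ∈ T, ∃ l₂, Piece.link g c l₂ ∈ Q') ∧
        (fun q => S.u g c'.1 c'.2 q) = ∑ c ∈ T, (fun q => S.u g c.1 c.2 q)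
    · obtain ⟨T, hT, hsumT⟩ := hdep
      have hc' : c' ∉ T := by
        intro hm
        obtain ⟨l₂, hl₂⟩ := hT c' hm
        exact htouch ⟨l₂, hsub hl₂⟩
      have hcardT : T.card ≤ Q'.card := by
        have h1 : ∀ c, ∃ l₂ : Fin (2 * ρ * S.m), c ∈ T → Piece.link g c l₂ ∈ Q' := by
          intro c
          by_cases hc : c ∈ T
          · obtain ⟨l₂, h⟩ := hT c hc
            exact ⟨l₂, fun _ => h⟩
          · exact ⟨l, fun h => absurd h hc⟩
        choose f hf using h1
        refine Finset.card_le_card_of_injOn (fun c => Piece.link g c (f c)) (fun c hc => hf c hc) ?_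
        intro c _ c₂ _ he
        simp only [Piece.link.injEq] at he
        exact he.2.1
      have hcard' : (insert c' T).card ≤ ρ := by
        rw [Finset.card_insert_of_notMem hc']
        omega
      have hsum : ∑ c ∈ insert c' T, S.u g c.1 c.2 = 0 := by
        rw [Finset.sum_insert hc']
        have h2 : ∑ c ∈ T, S.u g c.1 c.2 = S.u g c'.1 c'.2 := hsumT.symm
        rw [h2]
        funext q
        exact zmod2_add_self' _
      rcases hW.dep g _ hcard' hsum with hE | ⟨s, hs, himg⟩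
      · exact absurd (hW.even_case hQ hinv (fun c hc => by
          obtain ⟨l₂, h⟩ := hT c hc
          exact ⟨l₂, hsub h⟩) hc' hE hsum) hD
      · rw [hD1]
        exact hW.full_case hnd hQ hsub hlt hinv hs hT hc' himg (by rw [← hDt, hD1])
    · -- the correction
      push Not at hdep
      let J : Type := {x : Tok ρ V × Fin (2 * ρ * S.m) // Piece.link g x.1 x.2 ∈ Q'}
      have hJ : Fintype.card J + 1 ≤ ρ := by
        have h1 : Fintype.card J ≤ Fintype.card {e // e ∈ Q'} := by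
          refine Fintype.card_le_of_injective (fun x => ⟨_, x.2⟩) ?_
          intro x y hxy
          have h2 := congrArg Subtype.val hxy
          simp only [Piece.link.injEq] at h2
          exact Subtype.ext (Prod.ext h2.2.1 h2.2.2)
        rw [Fintype.card_coe] at h1
        omega
      obtain ⟨δ, h1, h2, h3, h4, h5, h6⟩ := exists_correction (k := ρ) S.m_pos
        (fun (c : Tok ρ V) q => S.u g c.1 c.2 q) hJ (fun x : J => x.1.1) (fun x : J => x.1.2) c'
        (fun T hT heq => hdep T (fun c hc => by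
          obtain ⟨⟨x, hx⟩, rfl⟩ := hT c hc
          exact ⟨x.2, hx⟩) heq) l
      have hpreJ : ∀ c l₂, Piece.link g c l₂ ∈ Q' → δ l₂ = 0 ∧ prefixSum (S.v g c) δ l₂ = 0 ∧
          ∑ l, S.v g c l * δ l = 0 := by
        intro c l₂ hl₂
        exact ⟨h1 ⟨(c, l₂), hl₂⟩, h2 ⟨(c, l₂), hl₂⟩, h3 ⟨(c, l₂), hl₂⟩⟩
      have h5' : prefixSum (S.v g c') δ l = rb l := h5
      have h6' : ∑ l, S.v g c' l * δ l = 1 := h6
      refine hW.finish_link (θ₀ := θ.addY g δ) hQ hsub hlt hinv ⟨fun _ _ _ => rfl, ?_⟩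
        (fun _ _ => rfl) hDt ?_ ?_ ?_
      · intro g₂ c l₂ hl₂
        refine ⟨?_, ?_, ?_, rfl⟩
        · by_cases hg : g₂ = g
          · subst hg
            rw [addY_same]
            simp [(hpreJ c l₂ hl₂).1]
          · rw [addY_ne _ _ hg]
        · by_cases hg : g₂ = g
          · subst hg
            rw [pre_addY, (hpreJ c l₂ hl₂).2.1, add_zero]
          · rw [pre_addY_ne _ _ hg]
        · by_cases hg : g₂ = g
          · subst hg
            rw [tot_addY, (hpreJ c l₂ hl₂).2.2, add_zero]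
          · rw [tot_addY_ne _ _ hg]
      · rw [addY_same]
        simp [h4]
      · rw [pre_addY, h5', hD1, one_mul]
      · rw [tot_addY, h6', hD1]

/-- The extension to any constraint. -/
lemma Wf.exists_ext (hW : Wf S s₀ gR pa Code) (hnd : ¬ S.Der pa s₀) {Q : Finset (Piece S)}
    (hQ : Q.card ≤ ρ) {θ : Th S} (hinv : Inv Q θ) (e : Piece S) :
    ∃ ω : ZMod 2 × ZMod 2, ∀ Q', Q' ⊆ Q → Q'.card < ρ → ∃ θ' : Th S,
      Inv (insert e Q') θ' ∧ θ'.off e = ω ∧ ∀ e' ∈ Q', θ'.off e' = θ.off e' := by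
  cases e with
  | link g c l => exact hW.ext_link hnd hQ hinv g c l
  | tr g c =>
    by_cases hg : g = S.gt
    · subst hg
      exact hW.ext_tr_gt hnd hQ hinv c
    · exact hW.ext_tr hQ hinv hg c
  | con f c => exact hW.ext_con hQ hinv f c

/-- If the bottom of the twisted gate is not derivable, the graphs are equivalent. -/
theorem Wf.wlEquiv_of_not_der (hW : Wf S s₀ gR pa Code) (hnd : ¬ S.Der pa s₀) :
    WLEquiv ρ (altGraph S 0) (altGraph S 1) := by
  classical
  have hρ : 3 ≤ ρ := hW.rho_ge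
  refine wlEquiv_of_strategy (by omega)
    (fun Q ofs => ∃ θ : Th S, Inv Q θ ∧ ∀ e ∈ Q, ofs e = θ.off e) ?_ ?_ ?_
  · rintro Q ofs ⟨θ, hinv, hofs⟩
    refine ⟨θ.Θ, fun e he => ?_⟩
    have h1 := θ.goodAt e (fun g c l hl => hinv.1 g c l (hl ▸ he))
    unfold GoodAt at h1 ⊢
    rw [hofs e he]
    exact h1
  · rintro Q ofs ⟨θ, hinv, hofs⟩ hcard e
    by_cases he : e ∈ Q
    · refine ⟨ofs e, fun _ => rfl, fun Q' hsub _ => ⟨θ, hinv.mono ?_, fun e₂ he₂ => ?_⟩⟩
      · intro e₂ he₂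
        rcases Finset.mem_insert.mp he₂ with rfl | h
        · exact he
        · exact hsub h
      · rcases Finset.mem_insert.mp he₂ with rfl | h
        · simpa using hofs _ he
        · by_cases h₂ : e₂ = e
          · subst h₂
            simpa using hofs _ he
          · rw [update_of_ne h₂]
            exact hofs _ (hsub h)
    · obtain ⟨ω, hω⟩ := hW.exists_ext hnd hcard hinv e
      refine ⟨ω, fun h => absurd h he, fun Q' hsub hlt => ?_⟩
      obtain ⟨θ', h1, h2, h3⟩ := hω Q' hsub hlt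
      refine ⟨θ', h1, fun e₂ he₂ => ?_⟩
      rcases Finset.mem_insert.mp he₂ with rfl | h
      · simpa using h2.symm
      · have h₂ : e₂ ≠ e := fun h' => he (h' ▸ hsub h)
        rw [update_of_ne h₂, h3 _ h]
        exact hofs _ (hsub h)
  · refine ⟨⟨fun _ _ _ => 0, fun _ _ => 0⟩, ⟨fun g c l h => by simp at h, ?_⟩, fun e he => by simp at he⟩
    intro p s _ hp
    obtain ⟨e, he, -⟩ := hp ⟨0, by omega⟩
    simp at he

/-- The main theorem on systems. -/
theorem Wf.wlEquiv_iff (hW : Wf S s₀ gR pa Code) :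
    WLEquiv ρ (altGraph S 0) (altGraph S 1) ↔ ¬ S.Der pa s₀ :=
  ⟨hW.not_der_of_wlEquiv, hW.wlEquiv_of_not_der⟩

end Vale.Agent.Lib.P310.FC
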