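import Vale.Agent.Lib.P310.Full.Core.ProgCode
import Vale.Agent.Lib.P310.Full.Core.Wf

/-!
# The dependencies among the base vectors of a guard
-/

namespace Vale.Agent.Lib.P310.FC

open Function

variable {F V : Type} {ρ ℓ M : ℕ} [Field F] [AddCommGroup V] [Module F V] [Fintype V]
  [DecidableEq V] {α : Fin ρ → F}

lemma two_eq_zero_zmod : (2 : ZMod 2) = 0 := by decide

lemma zmod2_add_self (a : ZMod 2) : a + a = 0 := CharTwo.add_self_eq_zero a

lemma row_zero (C : Checks (V := V) α ℓ M) (G : Guard V ℓ) (q : Fin M) (i : Fin ρ) :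
    C.row G q i 0 = 0 := by
  have h := C.row_add G q i 0 0
  rw [add_zero] at h
  exact left_eq_add.mp h

lemma row_sum (C : Checks (V := V) α ℓ M) (G : Guard V ℓ) (q : Fin M) (i : Fin ρ) {ι : Type}
    (T : Finset ι) (f : ι → V) :
    C.row G q i (∑ c ∈ T, f c) = ∑ c ∈ T, C.row G q i (f c) := by
  classical
  induction T using Finset.induction_on with
  | empty => simp [row_zero]
  | insert a T ha ih => rw [Finset.sum_insert ha, Finset.sum_insert ha, C.row_add, ih]

variable (hρ : 0 < ρ)

include hρ in
lemma sum_ite_val_zero (a : ZMod 2) :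
    ∑ i : Fin ρ, (if i.val = 0 then a else 0) = a := by
  rw [Finset.sum_eq_single (⟨0, hρ⟩ : Fin ρ)]
  · simp
  · intro b _ hb
    have : b.val ≠ 0 := fun h => hb (Fin.ext h)
    simp [this]
  · simp

include hρ in
/-- A valuation passes the gate of a guard iff it is an encoding that meets the guard. -/
lemma inA_baseVec_iff (C : Checks (V := V) α ℓ M) (G : Guard V ℓ) (s : Fin ρ → V) :
    (∀ q, ∑ i, baseVec C G i (s i) q = 0) ↔ ∃ x : Fin ℓ → V, s = encode α x ∧ G.Holds x := by
  rw [← C.spec G s]
  constructor
  · intro h t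
    have h1 := h (Fin.natAdd ρ t)
    simp only [baseVec, Fin.addCases_right] at h1
    rw [Finset.sum_add_distrib, sum_ite_val_zero hρ] at h1
    exact (CharTwo.add_eq_zero).mp h1
  · intro h q
    refine Fin.addCases (fun j => ?_) (fun t => ?_) q
    · simp only [baseVec, Fin.addCases_left]
      rw [Finset.sum_add_distrib, sum_ite_val_zero hρ]
      simp [zmod2_add_self]
    · simp only [baseVec, Fin.addCases_right]
      rw [Finset.sum_add_distrib, sum_ite_val_zero hρ, h t, zmod2_add_self]

/-- The count of tokens of a class. -/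
lemma sum_card_filter (T : Finset (Tok ρ V)) :
    ∑ i : Fin ρ, (T.filter (fun c => c.1 = i)).card = T.card := by
  rw [← Finset.card_biUnion]
  · congr 1
    ext c
    simp
  · intro i _ j _ hij
    rw [Function.onFun, Finset.disjoint_left]
    intro c hc hc'
    exact hij ((Finset.mem_filter.mp hc).2.symm.trans (Finset.mem_filter.mp hc').2)

lemma cast_card_eq_of_parity {a b : ℕ} (h : (a : ZMod 2) + (b : ZMod 2) = 0) :
    (Even a ↔ Even b) := by
  have h1 : ((a + b : ℕ) : ZMod 2) = 0 := by
    push_cast
    exact h
  rw [ZMod.natCast_eq_zero_iff_even] at h1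
  rw [Nat.even_add] at h1
  exact h1

include hρ in
/-- The classification of the dependencies. -/
theorem baseVec_dep (hα : Injective α) (hℓ : 2 * ℓ ≤ ρ + 1) (C : Checks (V := V) α ℓ M)
    (G : Guard V ℓ) (T : Finset (Tok ρ V)) (hT : T.card ≤ ρ)
    (hsum : ∑ c ∈ T, baseVec C G c.1 c.2 = 0) :
    EvenZero T ∨ ∃ s : Fin ρ → V, (∀ q, ∑ i, baseVec C G i (s i) q = 0) ∧
      T = Finset.univ.image (fun i => (i, s i)) := by
  classical
  set i₀ : Fin ρ := ⟨0, hρ⟩ with hi₀
  have hval0 : ∀ c : Tok ρ V, c.1.val = 0 ↔ c.1 = i₀ := fun c => by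
    rw [Fin.ext_iff]
  -- the parity coordinates
  have hpar : ∀ j : Fin ρ, Even (T.filter (fun c => c.1 = j)).card ↔
      Even (T.filter (fun c => c.1 = i₀)).card := by
    intro j
    have h1 := congrFun hsum (Fin.castAdd M j)
    simp only [Finset.sum_apply, baseVec, Fin.addCases_left, Pi.zero_apply] at h1
    rw [Finset.sum_add_distrib] at h1
    have h2 : ∑ c ∈ T, (if c.1 = j then (1 : ZMod 2) else 0) =
        ((T.filter (fun c => c.1 = j)).card : ZMod 2) := by
      rw [Finset.sum_boole]
    have h3 : ∑ c ∈ T, (if c.1.val = 0 then (1 : ZMod 2) else 0) =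
        ((T.filter (fun c => c.1 = i₀)).card : ZMod 2) := by
      simp only [hval0]
      rw [Finset.sum_boole]
    rw [h2, h3] at h1
    exact cast_card_eq_of_parity h1
  -- the check coordinates
  set σ : Fin ρ → V := fun i => ∑ c ∈ T.filter (fun c => c.1 = i), c.2 with hσ
  have hrow : ∀ t : Fin M, ∑ i, C.row G t i (σ i) +
      ((T.filter (fun c => c.1 = i₀)).card : ZMod 2) * C.cst G t = 0 := by
    intro t
    have h1 := congrFun hsum (Fin.natAdd ρ t)
    simp only [Finset.sum_apply, baseVec, Fin.addCases_right, Pi.zero_apply] at h1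
    rw [Finset.sum_add_distrib] at h1
    have h2 : ∑ c ∈ T, C.row G t c.1 c.2 = ∑ i, C.row G t i (σ i) := by
      rw [← Finset.sum_fiberwise T (fun c => c.1)]
      refine Finset.sum_congr rfl fun i _ => ?_
      rw [hσ]
      simp only
      rw [row_sum]
      refine Finset.sum_congr rfl fun c hc => ?_
      rw [(Finset.mem_filter.mp hc).2]
    have h3 : ∑ c ∈ T, (if c.1.val = 0 then C.cst G t else 0) =
        ((T.filter (fun c => c.1 = i₀)).card : ZMod 2) * C.cst G t := by
      simp only [hval0]
      rw [← Finset.sum_filter, Finset.sum_const, nsmul_eq_mul]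
    rw [h2, h3] at h1
    exact h1
  by_cases heven : Even (T.filter (fun c => c.1 = i₀)).card
  · -- the even case
    left
    have hev : ∀ j, Even (T.filter (fun c => c.1 = j)).card := fun j => (hpar j).mpr heven
    have hcast : ((T.filter (fun c => c.1 = i₀)).card : ZMod 2) = 0 :=
      (ZMod.natCast_eq_zero_iff_even).mpr heven
    have hrow0 : ∀ t : Fin M, ∑ i, C.row G t i (σ i) = 0 := by
      intro t
      have h1 := hrow t
      rwa [hcast, zero_mul, add_zero] at h1
    -- a base point of the guard
    set x₁ : Fin ℓ → V := fun j => (G j).getD 0 with hx₁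
    have hx₁G : G.Holds x₁ := by
      intro j a h
      simp [hx₁, h]
    have h1 := (C.spec G (encode α x₁)).mpr ⟨x₁, rfl, hx₁G⟩
    have h2 : ∀ t, ∑ i, C.row G t i (encode α x₁ i + σ i) = C.cst G t := by
      intro t
      simp only [C.row_add]
      rw [Finset.sum_add_distrib, h1 t, hrow0 t, add_zero]
    obtain ⟨x₂, hx₂, -⟩ := (C.spec G (fun i => encode α x₁ i + σ i)).mp h2
    have hσz : σ = encode α (fun j => x₂ j - x₁ j) := by
      rw [encode_sub, ← hx₂]
      funext i
      simp
    by_cases hz : ∃ j, x₂ j - x₁ j ≠ 0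
    · exfalso
      have h3 := card_nonzero_encode hα (fun j => x₂ j - x₁ j) hz
      rw [← hσz] at h3
      set I := Finset.univ.filter (fun i => σ i ≠ 0) with hI
      have h4 : ∀ i ∈ I, 2 ≤ (T.filter (fun c => c.1 = i)).card := by
        intro i hi
        have h5 : σ i ≠ 0 := (Finset.mem_filter.mp hi).2
        have h6 : (T.filter (fun c => c.1 = i)).Nonempty := by
          rw [Finset.nonempty_iff_ne_empty]
          intro h7
          apply h5
          simp [hσ, h7]
        have h7 := (hev i)
        have h8 := Finset.card_pos.mpr h6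
        rcases h7 with ⟨r, hr⟩
        omega
      have h5 : 2 * I.card ≤ T.card := by
        rw [← sum_card_filter T]
        calc 2 * I.card = ∑ i ∈ I, 2 := by simp [mul_comm]
          _ ≤ ∑ i ∈ I, (T.filter (fun c => c.1 = i)).card := Finset.sum_le_sum h4
          _ ≤ ∑ i, (T.filter (fun c => c.1 = i)).card :=
            Finset.sum_le_sum_of_subset (Finset.subset_univ _)
      omega
    · push Not at hz
      have hσ0 : σ = fun _ => 0 := by
        rw [hσz]
        simp only [hz]
        exact encode_zero α
      intro i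
      exact ⟨hev i, congrFun hσ0 i⟩
  · -- the odd case
    right
    have hodd : ∀ j, ¬ Even (T.filter (fun c => c.1 = j)).card := fun j h =>
      heven ((hpar j).mp h)
    have hone : ∀ j, (T.filter (fun c => c.1 = j)).card = 1 := by
      have h1 : ∀ j, 1 ≤ (T.filter (fun c => c.1 = j)).card := by
        intro j
        by_contra h
        have h2 : (T.filter (fun c => c.1 = j)).card = 0 := by omega
        exact hodd j (by rw [h2]; exact Even.zero)
      have h2 : ∑ i : Fin ρ, (T.filter (fun c => c.1 = i)).card = ∑ _i : Fin ρ, 1 := by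
        have h3 := Finset.sum_le_sum (s := Finset.univ) (fun i _ => h1 i)
        refine le_antisymm ?_ h3
        rw [sum_card_filter]
        simpa using hT
      intro j
      exact (Finset.sum_eq_sum_iff_of_le (fun i _ => h1 i)).mp h2.symm j (Finset.mem_univ _) |>.symm
    have hex : ∀ j, ∃ a : V, T.filter (fun c => c.1 = j) = {(j, a)} := by
      intro j
      obtain ⟨c, hc⟩ := Finset.card_eq_one.mp (hone j)
      have h1 : c ∈ T.filter (fun c => c.1 = j) := by
        rw [hc]
        exact Finset.mem_singleton_self c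
      refine ⟨c.2, ?_⟩
      rw [hc]
      have h2 : c.1 = j := (Finset.mem_filter.mp h1).2
      congr 1
      exact Prod.ext h2 rfl
    choose s hs using hex
    have hσs : σ = s := by
      funext i
      simp [hσ, hs i]
    have hT' : T = Finset.univ.image (fun i => (i, s i)) := by
      ext c
      constructor
      · intro hc
        have h1 : c ∈ T.filter (fun d => d.1 = c.1) := Finset.mem_filter.mpr ⟨hc, rfl⟩
        rw [hs c.1, Finset.mem_singleton] at h1
        exact Finset.mem_image.mpr ⟨c.1, Finset.mem_univ _, h1.symm⟩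
      · intro hc
        obtain ⟨i, -, rfl⟩ := Finset.mem_image.mp hc
        have h1 : (i, s i) ∈ T.filter (fun d => d.1 = i) := by
          rw [hs i]
          exact Finset.mem_singleton_self _
        exact (Finset.mem_filter.mp h1).1
    refine ⟨s, ?_, hT'⟩
    rw [inA_baseVec_iff hρ, ← C.spec G s]
    intro t
    have h1 := hrow t
    rw [hone i₀, hσs] at h1
    simp only [Nat.cast_one, one_mul] at h1
    exact (CharTwo.add_eq_zero).mp h1

end Vale.Agent.Lib.P310.FC
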