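import Vale.Agent.Lib.P310.Full.Core.ProgDep
import Vale.Agent.Lib.P310.Full.Core.Main

/-!
# The system of a program is well formed, and its derivations are those of the program
-/

namespace Vale.Agent.Lib.P310.FC

open Function

variable {F V : Type} {ρ ℓ M : ℕ} [Field F] [AddCommGroup V] [Module F V] [Fintype V]
  [DecidableEq V] {α : Fin ρ → F}

section Fam

variable {V' : Type} {ℓ' : ℕ} (P : Prog V' ℓ')

lemma stF_ne_ruF (q : Fin P.nQ) (r : Fin P.nR) : stF P q ≠ ruF P r := by
  intro h
  have h1 := congrArg Fin.val h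
  simp [stF, ruF] at h1
  have := q.isLt
  omega

lemma stF_inj {q q' : Fin P.nQ} (h : stF P q = stF P q') : q = q' := by
  have h1 := congrArg Fin.val h
  simp [stF] at h1
  exact Fin.ext h1

lemma ruF_inj {r r' : Fin P.nR} (h : ruF P r = ruF P r') : r = r' := by
  have h1 := congrArg Fin.val h
  simp [ruF] at h1
  exact Fin.ext h1

lemma stF_ne_last (q : Fin P.nQ) : stF P q ≠ Fin.last _ := by
  intro h
  have h1 := congrArg Fin.val h
  simp [stF] at h1
  have := q.isLt
  omega

lemma ruF_ne_last (r : Fin P.nR) : ruF P r ≠ Fin.last _ := by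
  intro h
  have h1 := congrArg Fin.val h
  simp [ruF] at h1
  have := r.isLt
  omega

end Fam

variable (hρ : 0 < ρ) (C : Checks (V := V) α ℓ M) (P : Prog V ℓ) (q₀ : Fin P.nQ) (x₀ : Fin ℓ → V)
  (nG : ℕ) (eG : GateTag P.nR ≃ Fin nG)

@[simp] lemma progSys_bot (t : GateTag P.nR) :
    (progSys hρ C P q₀ x₀ nG eG).bot (eG t) = gateBot P q₀ t := by
  simp [progSys]

@[simp] lemma progSys_top (t : GateTag P.nR) :
    (progSys hρ C P q₀ x₀ nG eG).top (eG t) = gateTop P t := by
  simp [progSys]

@[simp] lemma progSys_lam (t : GateTag P.nR) :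
    (progSys hρ C P q₀ x₀ nG eG).lam (eG t) = encode α (gateAdd P t) := by
  simp [progSys]

lemma progSys_inA (t : GateTag P.nR) (s : Fin ρ → V) :
    (progSys hρ C P q₀ x₀ nG eG).InA (eG t) s ↔ ∃ x : Fin ℓ → V, s = encode α x ∧
      (gateGuard P x₀ t).Holds x := by
  rw [← inA_baseVec_iff hρ C]
  simp [Sys.InA, progSys]

lemma holds_none (x : Fin ℓ → V) : Guard.Holds (fun _ => none) x := by
  intro j a h
  simp at h

lemma holds_all_iff (x : Fin ℓ → V) : Guard.Holds (fun j => some (x₀ j)) x ↔ x = x₀ := by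
  constructor
  · intro h
    funext j
    exact h j _ rfl
  · rintro rfl j a h
    simpa using h

lemma progSys_gt : (progSys hρ C P q₀ x₀ nG eG).gt = eG (.inr (.inr (.inr true))) := rfl

lemma gateAdd_of_root (b : Bool) (j : Fin ℓ) : gateAdd P (.inr (.inr (.inr b))) j = 0 := rfl

lemma encode_gateAdd_root (b : Bool) (i : Fin ρ) :
    encode α (gateAdd P (.inr (.inr (.inr b)))) i = 0 := by
  have h : gateAdd P (.inr (.inr (.inr b))) = fun _ => (0 : V) := rfl
  rw [h, encode_zero]

/-- The well-formedness of the system of a program. -/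
theorem progSys_wf (hρ3 : 3 ≤ ρ) (hα : Injective α) (hℓ : 2 * ℓ ≤ ρ + 1) :
    Wf (progSys hρ C P q₀ x₀ nG eG) (encode α x₀) (eG (.inr (.inr (.inr false))))
      (stF P q₀, some false) (Set.range (encode (ℓ := ℓ) α)) := by
  have hℓρ : ℓ ≤ ρ := by omega
  have hinj := encode_injective (V := V) (ℓ := ℓ) hα hℓρ
  have hsurj : ∀ g : Fin (progSys hρ C P q₀ x₀ nG eG).nG, ∃ t : GateTag P.nR, g = eG t :=
    fun g => ⟨eG.symm g, (eG.apply_symm_apply g).symm⟩
  refine
    { rho_ge := hρ3
      fam := ?_
      bot_ne_last := ?_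
      top_last := ?_
      gt_bot := ?_
      gt_top := ?_
      gt_lam := ?_
      gt_A := ?_
      gR_bot := ?_
      gR_top := ?_
      gR_lam := ?_
      gR_A := ?_
      code_A := ?_
      code_lam := ?_
      code_add := ?_
      code_dist := ?_
      dep := ?_ }
  · intro g p hp
    obtain ⟨t, rfl⟩ := hsurj g
    rw [progSys_bot] at hp
    rw [progSys_top]
    rcases t with r | r | r | b
    · obtain ⟨q, -, rfl⟩ := Option.map_eq_some_iff.mp hp
      exact stF_ne_ruF P q r
    · obtain ⟨q, -, rfl⟩ := Option.map_eq_some_iff.mp hp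
      exact stF_ne_ruF P q r
    · have hp' := Option.some.inj hp
      subst hp'
      exact fun h => stF_ne_ruF P _ _ h.symm
    · cases b
      · simp [gateBot] at hp
      · have hp' := Option.some.inj hp
        subst hp'
        exact stF_ne_last P q₀
  · intro g p hp
    obtain ⟨t, rfl⟩ := hsurj g
    rw [progSys_bot] at hp
    rcases t with r | r | r | b
    · obtain ⟨q, -, rfl⟩ := Option.map_eq_some_iff.mp hp
      exact stF_ne_last P q
    · obtain ⟨q, -, rfl⟩ := Option.map_eq_some_iff.mp hp
      exact stF_ne_last P q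
    · have hp' := Option.some.inj hp
      subst hp'
      exact ruF_ne_last P r
    · cases b
      · simp [gateBot] at hp
      · have hp' := Option.some.inj hp
        subst hp'
        exact stF_ne_last P q₀
  · intro g hg
    obtain ⟨t, rfl⟩ := hsurj g
    rw [progSys_top] at hg
    rcases t with r | r | r | b
    · exact absurd hg (ruF_ne_last P r)
    · exact absurd hg (ruF_ne_last P r)
    · exact absurd hg (stF_ne_last P _)
    · cases b
      · exact Or.inr rfl
      · exact Or.inl rfl
  · rw [progSys_gt, progSys_bot]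
    rfl
  · rw [progSys_gt, progSys_top]
    rfl
  · intro i
    rw [progSys_gt, progSys_lam, encode_gateAdd_root]
  · intro s
    rw [progSys_gt, progSys_inA]
    simp only [gateGuard, holds_all_iff]
    constructor
    · rintro ⟨x, rfl, rfl⟩
      rfl
    · rintro rfl
      exact ⟨x₀, rfl, rfl⟩
  · rw [progSys_bot]
    rfl
  · rw [progSys_top]
    rfl
  · intro i
    rw [progSys_lam, encode_gateAdd_root]
  · intro s
    rw [progSys_inA]
    simp only [gateGuard, holds_all_iff]
    constructor
    · rintro ⟨x, rfl, rfl⟩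
      rfl
    · rintro rfl
      exact ⟨x₀, rfl, rfl⟩
  · intro g s hs
    obtain ⟨t, rfl⟩ := hsurj g
    obtain ⟨x, rfl, -⟩ := (progSys_inA hρ C P q₀ x₀ nG eG t s).mp hs
    exact ⟨x, rfl⟩
  · intro g
    obtain ⟨t, rfl⟩ := hsurj g
    rw [progSys_lam]
    exact ⟨_, rfl⟩
  · rintro _ _ ⟨x, rfl⟩ ⟨y, rfl⟩
    exact ⟨_, encode_add α x y⟩
  · rintro _ _ ⟨x, rfl⟩ ⟨y, rfl⟩ hne
    have hz : ∃ j, x j - y j ≠ 0 := by
      by_contra h
      push Not at h
      exact hne (congrArg _ (funext fun j => sub_eq_zero.mp (h j)))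
    have h1 := card_nonzero_encode hα (fun j => x j - y j) hz
    have h2 : 1 < (Finset.univ.filter (fun i => encode α (fun j => x j - y j) i ≠ 0)).card := by
      omega
    obtain ⟨i, hi, j, hj, hij⟩ := Finset.one_lt_card.mp h2
    have h3 : ∀ i, encode α (fun j => x j - y j) i ≠ 0 → encode α x i ≠ encode α y i := by
      intro i hi he
      apply hi
      rw [encode_sub]
      show encode α x i - encode α y i = 0
      rw [he, sub_self]
    exact ⟨i, j, hij, h3 i (Finset.mem_filter.mp hi).2, h3 j (Finset.mem_filter.mp hj).2⟩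
  · intro g T hT hsum
    obtain ⟨t, rfl⟩ := hsurj g
    have hu : ∀ (c : Tok ρ V), (progSys hρ C P q₀ x₀ nG eG).u (eG t) c.1 c.2 =
        baseVec C (gateGuard P x₀ t) c.1 c.2 := by
      intro c
      simp [progSys]
    simp only [hu] at hsum
    rcases baseVec_dep hρ hα hℓ C (gateGuard P x₀ t) T hT hsum with h | ⟨s, hs, hT'⟩
    · exact Or.inl h
    · refine Or.inr ⟨s, ?_, hT'⟩
      rw [progSys_inA, ← inA_baseVec_iff hρ C]
      exact hs

/-- What a derivation of the system means. -/
def DerInv (α : Fin ρ → F) (P : Prog V ℓ) (p : Fin (P.nQ + P.nR + 1) × Option Bool)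
    (s : Fin ρ → V) : Prop :=
  (∀ q μ, p = (stF P q, μ) → μ = some false ∧ ∃ x, s = encode α x ∧ P.Derives q x) ∧
  (∀ r, p = (ruF P r, some false) → ∃ x, s = encode α x ∧
    ∀ q, (P.rule r).prem₁ = some q → P.Derives q x) ∧
  (∀ r, p = (ruF P r, some true) → ∃ x, s = encode α x ∧
    ∀ q, (P.rule r).prem₂ = some q → P.Derives q x) ∧
  (∀ r, p = (ruF P r, none) → ∃ x, s = encode α x ∧
    (∀ q, (P.rule r).prem₁ = some q → P.Derives q x) ∧
    (∀ q, (P.rule r).prem₂ = some q → P.Derives q x))

lemma topCut_eq (t : GateTag P.nR) :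
    (progSys hρ C P q₀ x₀ nG eG).topCut (eG t) = ((gateTop P t).1, some (gateTop P t).2) := by
  unfold Sys.topCut
  rw [progSys_top]
  rfl

/-- Soundness of the translation. -/
theorem derInv_of_der (hα : Injective α) (hℓ : ℓ ≤ ρ)
    {p : Fin ((progSys hρ C P q₀ x₀ nG eG).nF + 1) × Option Bool} {s : Fin ρ → V} (h : (progSys hρ C P q₀ x₀ nG eG).Der p s) : DerInv α P p s := by
  have hinj := encode_injective (V := V) (ℓ := ℓ) hα hℓ
  induction h with
  | gate g hg s hs ha ih =>
    obtain ⟨t, rfl⟩ : ∃ t : GateTag P.nR, g = eG t :=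
      ⟨eG.symm g, (eG.apply_symm_apply g).symm⟩
    rw [topCut_eq]
    obtain ⟨x, rfl, hxG⟩ := (progSys_inA hρ C P q₀ x₀ nG eG t s).mp hs
    simp only [progSys_bot] at ih
    rcases t with r | r | r | b
    · have hlam : (fun i => encode α x i + (progSys hρ C P q₀ x₀ nG eG).lam (eG (.inl r)) i) =
          encode α x := by
        rw [progSys_lam]
        have : gateAdd P (.inl r) = fun _ => (0 : V) := rfl
        rw [this, encode_zero]
        simp
      rw [hlam]
      refine ⟨fun q μ h => absurd (congrArg Prod.fst h) (fun h' => stF_ne_ruF P _ _ h'.symm),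
        fun r' h => ?_, fun r' h => ?_, fun r' h => ?_⟩
      · have : r' = r := ruF_inj P (congrArg Prod.fst h).symm
        subst this
        refine ⟨x, rfl, fun q hq => ?_⟩
        have h1 := (ih (stF P q, some false) (by simp [gateBot, hq]; rfl)).1 q _ rfl
        obtain ⟨-, x', hx', hd⟩ := h1
        rwa [hinj hx']
      · simp [gateTop] at h
      · simp [gateTop] at h
    · have hlam : (fun i => encode α x i + (progSys hρ C P q₀ x₀ nG eG).lam (eG (.inr (.inl r))) i) =
          encode α x := by
        rw [progSys_lam]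
        have : gateAdd P (.inr (.inl r)) = fun _ => (0 : V) := rfl
        rw [this, encode_zero]
        simp
      rw [hlam]
      refine ⟨fun q μ h => absurd (congrArg Prod.fst h) (fun h' => stF_ne_ruF P _ _ h'.symm),
        fun r' h => ?_, fun r' h => ?_, fun r' h => ?_⟩
      · simp [gateTop] at h
      · have : r' = r := ruF_inj P (congrArg Prod.fst h).symm
        subst this
        refine ⟨x, rfl, fun q hq => ?_⟩
        have h1 := (ih (stF P q, some false) (by simp [gateBot, hq]; rfl)).1 q _ rfl
        obtain ⟨-, x', hx', hd⟩ := h1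
        rwa [hinj hx']
      · simp [gateTop] at h
    · have h1 := (ih (ruF P r, none) rfl).2.2.2 r rfl
      obtain ⟨x', hx', h₁, h₂⟩ := h1
      rw [← hinj hx'] at h₁ h₂
      have hlam : (fun i => encode α x i + (progSys hρ C P q₀ x₀ nG eG).lam (eG (.inr (.inr (.inl r)))) i) =
          encode α (fun j => x j + (P.rule r).add j) := by
        rw [progSys_lam, encode_add]
        rfl
      rw [hlam]
      refine ⟨fun q μ h => ?_, fun r' h => absurd (congrArg Prod.fst h) (stF_ne_ruF P _ _),
        fun r' h => absurd (congrArg Prod.fst h) (stF_ne_ruF P _ _),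
        fun r' h => absurd (congrArg Prod.fst h) (stF_ne_ruF P _ _)⟩
      have h3 : q = (P.rule r).concl := stF_inj P (congrArg Prod.fst h).symm
      have h4 : μ = some false := (congrArg Prod.snd h).symm
      subst h3
      exact ⟨h4, _, rfl, Prog.Derives.step r x hxG h₁ h₂⟩
    · cases b
      · refine ⟨fun q μ h => absurd (congrArg Prod.fst h).symm (stF_ne_last P q),
          fun r' h => absurd (congrArg Prod.fst h).symm (ruF_ne_last P r'),
          fun r' h => absurd (congrArg Prod.fst h).symm (ruF_ne_last P r'),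
          fun r' h => absurd (congrArg Prod.fst h).symm (ruF_ne_last P r')⟩
      · exact absurd rfl hg
  | conj f s h₀ h₁ ih₀ ih₁ =>
    refine ⟨fun q μ h => ?_, fun r h => ?_, fun r h => ?_, fun r h => ?_⟩
    · have h3 := congrArg Prod.snd h
      have h4 := congrArg Prod.fst h
      simp only at h3 h4
      subst h3
      have h5 := ih₁.1 q (some true) (by rw [← h4]; rfl)
      simp at h5
    · exact absurd (congrArg Prod.snd h) (by simp)
    · exact absurd (congrArg Prod.snd h) (by simp)
    · have h4 := congrArg Prod.fst h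
      simp only at h4
      obtain ⟨x, hx, h₁'⟩ := ih₀.2.1 r (by rw [h4]; rfl)
      obtain ⟨x', hx', h₂'⟩ := ih₁.2.2.1 r (by rw [h4]; rfl)
      have : x' = x := hinj (hx'.symm.trans hx)
      subst this
      exact ⟨x', hx, h₁', h₂'⟩

/-- Completeness of the translation. -/
theorem der_of_derives {q : Fin P.nQ} {x : Fin ℓ → V} (hd : P.Derives q x) :
    (progSys hρ C P q₀ x₀ nG eG).Der (stF P q, some false) (encode α x) := by
  induction hd with
  | step r x hg h₁ h₂ ih₁ ih₂ =>
    have hne : ∀ t : GateTag P.nR, t ≠ .inr (.inr (.inr true)) →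
        eG t ≠ (progSys hρ C P q₀ x₀ nG eG).gt := by
      intro t ht h
      exact ht (eG.injective h)
    have d₁ : (progSys hρ C P q₀ x₀ nG eG).Der (ruF P r, some false) (encode α x) := by
      have h1 := Sys.Der.gate (S := progSys hρ C P q₀ x₀ nG eG) (eG (.inl r))
        (hne _ (by simp)) (encode α x)
        ((progSys_inA hρ C P q₀ x₀ nG eG _ _).mpr ⟨x, rfl, holds_none x⟩) (fun p hp => by
          rw [progSys_bot] at hp
          obtain ⟨q, hq, rfl⟩ := Option.map_eq_some_iff.mp hp
          exact ih₁ q hq)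
      rw [topCut_eq] at h1
      have hlam : (fun i => encode α x i + (progSys hρ C P q₀ x₀ nG eG).lam (eG (.inl r)) i) =
          encode α x := by
        rw [progSys_lam]
        have : gateAdd P (.inl r) = fun _ => (0 : V) := rfl
        rw [this, encode_zero]
        simp
      rw [hlam] at h1
      exact h1
    have d₂ : (progSys hρ C P q₀ x₀ nG eG).Der (ruF P r, some true) (encode α x) := by
      have h1 := Sys.Der.gate (S := progSys hρ C P q₀ x₀ nG eG) (eG (.inr (.inl r)))
        (hne _ (by simp)) (encode α x)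
        ((progSys_inA hρ C P q₀ x₀ nG eG _ _).mpr ⟨x, rfl, holds_none x⟩) (fun p hp => by
          rw [progSys_bot] at hp
          obtain ⟨q, hq, rfl⟩ := Option.map_eq_some_iff.mp hp
          exact ih₂ q hq)
      rw [topCut_eq] at h1
      have hlam : (fun i => encode α x i + (progSys hρ C P q₀ x₀ nG eG).lam (eG (.inr (.inl r))) i) =
          encode α x := by
        rw [progSys_lam]
        have : gateAdd P (.inr (.inl r)) = fun _ => (0 : V) := rfl
        rw [this, encode_zero]
        simp
      rw [hlam] at h1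
      exact h1
    have d₃ : (progSys hρ C P q₀ x₀ nG eG).Der (ruF P r, none) (encode α x) :=
      Sys.Der.conj (S := progSys hρ C P q₀ x₀ nG eG) (Fin.natAdd P.nQ r) _ d₁ d₂
    have h1 := Sys.Der.gate (S := progSys hρ C P q₀ x₀ nG eG) (eG (.inr (.inr (.inl r))))
      (hne _ (by simp)) (encode α x)
      ((progSys_inA hρ C P q₀ x₀ nG eG _ _).mpr ⟨x, rfl, hg⟩) (fun p hp => by
        rw [progSys_bot] at hp
        have hp' := Option.some.inj hp
        subst hp'
        exact d₃)
    rw [topCut_eq] at h1
    have hlam : (fun i => encode α x i + (progSys hρ C P q₀ x₀ nG eG).lam (eG (.inr (.inr (.inl r)))) i) =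
        encode α (fun j => x j + (P.rule r).add j) := by
      rw [progSys_lam, encode_add]
      rfl
    rw [hlam] at h1
    exact h1

/-- The main theorem for programs: `ρ`-WL equivalence of the two graphs of the system of a program
decides derivability of a fact, if there are at most `(ρ + 1) / 2` registers. -/
theorem wlEquiv_progSys_iff [CharP F 2] [Numbered (progSys hρ C P q₀ x₀ nG eG)] (hρ3 : 3 ≤ ρ) (hα : Injective α) (hℓ : 2 * ℓ ≤ ρ + 1) :
    WLEquiv ρ (altGraph (progSys hρ C P q₀ x₀ nG eG) 0) (altGraph (progSys hρ C P q₀ x₀ nG eG) 1) ↔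
      ¬ P.Derives q₀ x₀ := by
  classical
  let _ : Module (ZMod 2) V := AddCommGroup.zmodModule (n := 2) (by
    intro x
    have h1 : ((2 : ℕ) : F) = 0 := CharP.cast_eq_zero F 2
    have h2 : (((2 : ℕ) : F)) • x = 0 := by rw [h1, zero_smul]
    rwa [Nat.cast_smul_eq_nsmul] at h2)
  rw [(progSys_wf hρ C P q₀ x₀ nG eG hρ3 hα hℓ).wlEquiv_iff]
  refine not_congr ⟨fun h => ?_, der_of_derives hρ C P q₀ x₀ nG eG⟩
  have hinj := encode_injective (V := V) (ℓ := ℓ) hα (by omega)
  obtain ⟨-, x, hx, hd⟩ := (derInv_of_der hρ C P q₀ x₀ nG eG hα (by omega) h).1 q₀ _ rfl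
  rwa [hinj hx]

end Vale.Agent.Lib.P310.FC
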