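import Vale.Agent.Lib.P310.Full.Core.Want

/-!
# Changing Duplicator's state
-/

namespace Vale.Agent.Lib.P310.FC

open Function

variable {ρ : ℕ} {V : Type} [AddCommGroup V] [Module (ZMod 2) V] [Fintype V] [DecidableEq V]
  {S : Sys ρ V} [Numbered S]

omit [Fintype V] [DecidableEq V] in
lemma v_add_self (r : V) : r + r = 0 := by
  have h : (2 : ZMod 2) • r = r + r := two_smul _ _
  rw [← h]
  have h2 : (2 : ZMod 2) = 0 := rfl
  rw [h2, zero_smul]

omit [DecidableEq V] in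
lemma exists_dual_eq_one {r : V} (hr : r ≠ 0) : ∃ ψ : Module.Dual (ZMod 2) V, ψ r = 1 := by
  have h := (Module.forall_dual_apply_eq_zero_iff (ZMod 2) r).not.mpr hr
  push Not at h
  obtain ⟨ψ, hψ⟩ := h
  exact ⟨ψ, zmod2_eq_one_of_ne hψ⟩

omit [DecidableEq V] in
/-- An affine function with a prescribed value at a point, vanishing at another point. -/
lemma exists_aff (r₁ r₂ : V) (d : ZMod 2) :
    ∃ φ : Aff V, φ.eval r₁ = d ∧ (r₂ ≠ r₁ → φ.eval r₂ = 0) := by
  classical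
  by_cases h : r₂ = r₁
  · exact ⟨(d, 0), by simp [Aff.eval], fun hn => absurd h hn⟩
  · have hne : r₁ + r₂ ≠ 0 := by
      intro h0
      apply h
      have := congrArg (· + r₂) h0
      simp only [add_assoc, v_add_self, add_zero, zero_add] at this
      exact this.symm
    obtain ⟨ψ, hψ⟩ := exists_dual_eq_one hne
    refine ⟨(d * ψ r₂, d • ψ), ?_, fun _ => ?_⟩
    · have h1 : ψ r₁ + ψ r₂ = 1 := by rw [← map_add, hψ]
      simp only [Aff.eval, LinearMap.smul_apply, smul_eq_mul]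
      have h2 : d * ψ r₂ + d * ψ r₁ = d * (ψ r₁ + ψ r₂) := by ring
      rw [h2, h1, mul_one]
    · simp only [Aff.eval, LinearMap.smul_apply, smul_eq_mul]
      exact zmod2_add_self' _

/-- Add affine functions to the two input members of a family at a class. -/
def Th.addZ (θ : Th S) (f : Fin (S.nF + 1)) (i : Fin ρ) (φ₀ φ₁ : Aff V) : Th S where
  Z f' b i' := if f' = f ∧ i' = i then θ.Z f' b i' + (if b then φ₁ else φ₀) else θ.Z f' b i'
  Y := θ.Y

/-- The change of a member. -/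
def memInc (μ : Option Bool) (φ₀ φ₁ : Aff V) (r : V) : ZMod 2 :=
  match μ with
  | some false => φ₀.eval r
  | some true => φ₁.eval r
  | none => φ₀.eval r + φ₁.eval r

omit [Fintype V] [DecidableEq V] in
lemma chiV_addZ_same (θ : Th S) (f : Fin (S.nF + 1)) (i : Fin ρ) (φ₀ φ₁ : Aff V)
    (μ : Option Bool) (r : V) :
    (θ.addZ f i φ₀ φ₁).chiV (f, μ) (i, r) = θ.chiV (f, μ) (i, r) + memInc μ φ₀ φ₁ r := by
  cases μ with
  | none =>
    simp only [Th.chiV, Th.chiA, Th.addZ, and_self, if_true, memInc]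
    simp only [Bool.false_eq_true, if_false, Aff.eval, Prod.fst_add, Prod.snd_add,
      LinearMap.add_apply]
    ring
  | some b =>
    cases b <;> simp only [Th.chiV, Th.chiA, Th.addZ, memInc, and_self, if_true,
      Bool.false_eq_true, if_false, Aff.eval, Prod.fst_add, Prod.snd_add,
      LinearMap.add_apply] <;> ring

omit [Fintype V] [DecidableEq V] in
lemma chiV_addZ_ne (θ : Th S) (f : Fin (S.nF + 1)) (i : Fin ρ) (φ₀ φ₁ : Aff V)
    (p : Fin (S.nF + 1) × Option Bool) (c : Tok ρ V) (h : p.1 ≠ f ∨ c.1 ≠ i) :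
    (θ.addZ f i φ₀ φ₁).chiV p c = θ.chiV p c := by
  have h1 : ¬ (p.1 = f ∧ c.1 = i) := by
    rintro ⟨h2, h3⟩
    rcases h with h | h
    · exact h h2
    · exact h h3
  obtain ⟨f', μ⟩ := p
  obtain ⟨i', r⟩ := c
  simp only at h1
  cases μ <;> simp [Th.chiV, Th.chiA, Th.addZ, h1]

/-- Add a vector to the bits of a gate. -/
def Th.addY (θ : Th S) (g : Fin S.nG) (δ : Fin (2 * ρ * S.m) → ZMod 2) : Th S where
  Z := θ.Z
  Y g' := if g' = g then θ.Y g' + δ else θ.Y g'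

omit [Fintype V] [DecidableEq V] in
lemma chiV_addY (θ : Th S) (g : Fin S.nG) (δ : Fin (2 * ρ * S.m) → ZMod 2)
    (p : Fin (S.nF + 1) × Option Bool) (c : Tok ρ V) : (θ.addY g δ).chiV p c = θ.chiV p c := rfl

omit [Fintype V] [DecidableEq V] in
lemma addY_same (θ : Th S) (g : Fin S.nG) (δ : Fin (2 * ρ * S.m) → ZMod 2) :
    (θ.addY g δ).Y g = θ.Y g + δ := by
  simp [Th.addY]

omit [Fintype V] [DecidableEq V] in
lemma addY_ne (θ : Th S) {g g' : Fin S.nG} (δ : Fin (2 * ρ * S.m) → ZMod 2) (h : g' ≠ g) :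
    (θ.addY g δ).Y g' = θ.Y g' := by
  simp [Th.addY, h]

omit [Fintype V] [DecidableEq V] in
lemma pre_addY (θ : Th S) (g : Fin S.nG) (δ : Fin (2 * ρ * S.m) → ZMod 2) (c : Tok ρ V)
    (l : Fin (2 * ρ * S.m)) : (θ.addY g δ).pre g c l = θ.pre g c l + prefixSum (S.v g c) δ l := by
  simp only [Th.pre, addY_same, prefixSum_add]

omit [Fintype V] [DecidableEq V] in
lemma tot_addY (θ : Th S) (g : Fin S.nG) (δ : Fin (2 * ρ * S.m) → ZMod 2) (c : Tok ρ V) :
    (θ.addY g δ).tot g c = θ.tot g c + ∑ l, S.v g c l * δ l := by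
  simp only [Th.tot, addY_same, Pi.add_apply, mul_add, Finset.sum_add_distrib]

omit [Fintype V] [DecidableEq V] in
lemma pre_addY_ne (θ : Th S) {g g' : Fin S.nG} (δ : Fin (2 * ρ * S.m) → ZMod 2) (h : g' ≠ g)
    (c : Tok ρ V) (l : Fin (2 * ρ * S.m)) : (θ.addY g δ).pre g' c l = θ.pre g' c l := by
  simp only [Th.pre, addY_ne θ δ h]

omit [Fintype V] [DecidableEq V] in
lemma tot_addY_ne (θ : Th S) {g g' : Fin S.nG} (δ : Fin (2 * ρ * S.m) → ZMod 2) (h : g' ≠ g)
    (c : Tok ρ V) : (θ.addY g δ).tot g' c = θ.tot g' c := by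
  simp only [Th.tot, addY_ne θ δ h]

/-- At most one constraint of a class. -/
def ClassU (Q : Finset (Piece S)) (i : Fin ρ) : Prop :=
  ∀ z₁ ∈ Q, ∀ z₂ ∈ Q, cls z₁ = i → cls z₂ = i → z₁ = z₂

variable {s₀ : Fin ρ → V} {gR : Fin S.nG} {pa : Fin (S.nF + 1) × Option Bool}
  {Code : Set (Fin ρ → V)}

lemma Wf.topCut_gt (hW : Wf S s₀ gR pa Code) : S.topCut S.gt = (Fin.last S.nF, some false) := by
  simp [Sys.topCut, hW.gt_top]

lemma Wf.topCut_gR (hW : Wf S s₀ gR pa Code) : S.topCut gR = (Fin.last S.nF, some false) := by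
  simp [Sys.topCut, hW.gR_top]

lemma Wf.shift_gt (hW : Wf S s₀ gR pa Code) (c : Tok ρ V) : S.shift S.gt c = c := by
  simp [Sys.shift, hW.gt_lam]

lemma Wf.shift_gR (hW : Wf S s₀ gR pa Code) (c : Tok ρ V) : S.shift gR c = c := by
  simp [Sys.shift, hW.gR_lam]

/-- A family at a class can be changed at a point, keeping all pinned tokens. -/
lemma Wf.setFam (hW : Wf S s₀ gR pa Code) {Q' : Finset (Piece S)} {f : Fin (S.nF + 1)} {i : Fin ρ}
    {r' : V} {d₀ d₁ : ZMod 2} (hcu : ClassU Q' i)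
    (h₀ : Pin Q' (f, some false) (i, r') → d₀ = 0)
    (h₁ : Pin Q' (f, some true) (i, r') → d₁ = 0)
    (hd : Pin Q' (f, none) (i, r') → d₀ + d₁ = 0)
    (hF : f = Fin.last S.nF → ∀ l, Piece.link S.gt (i, r') l ∈ Q' → d₀ = 0) (θ : Th S) :
    ∃ θ' : Th S, Keep Q' θ θ' ∧ θ'.Y = θ.Y ∧ (∀ p c, p.1 ≠ f → θ'.chiV p c = θ.chiV p c) ∧
      (∀ p c, c.1 ≠ i → θ'.chiV p c = θ.chiV p c) ∧
      θ'.chiV (f, some false) (i, r') = θ.chiV (f, some false) (i, r') + d₀ ∧
      θ'.chiV (f, some true) (i, r') = θ.chiV (f, some true) (i, r') + d₁ := by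
  classical
  -- the points of the family at this class touched by the constraints
  let T : Set V := {r₁ | ∃ e ∈ Q', (∃ μ, Lnk e (f, μ) (i, r₁)) ∨
    (f = Fin.last S.nF ∧ ∃ l, e = Piece.link S.gt (i, r₁) l)}
  have hsub : T.Subsingleton := by
    rintro r₁ ⟨e₁, he₁, h₁'⟩ r₂ ⟨e₂, he₂, h₂'⟩
    have hc₁ : cls e₁ = i := by
      rcases h₁' with ⟨μ, hl⟩ | ⟨-, l, rfl⟩
      · exact (lnk_class hl).symm
      · rfl
    have hc₂ : cls e₂ = i := by
      rcases h₂' with ⟨μ, hl⟩ | ⟨-, l, rfl⟩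
      · exact (lnk_class hl).symm
      · rfl
    obtain rfl := hcu _ he₁ _ he₂ hc₁ hc₂
    have hno : ∀ (l : Fin (2 * ρ * S.m)) (c c₁ : Tok ρ V) (μ : Option Bool),
        f = Fin.last S.nF → ¬ Lnk (Piece.link S.gt c l) (f, μ) c₁ := by
      intro l c c₁ μ hf hl
      rcases hl with ⟨h3, -⟩ | ⟨h3, -⟩
      · exact hW.bot_ne_last _ _ h3 hf
      · exact h3 rfl
    rcases h₁' with ⟨μ, hl⟩ | ⟨hf, l, rfl⟩ <;> rcases h₂' with ⟨μ', hl'⟩ | ⟨hf', l', he⟩
    · have := hW.lnk_unique hl hl'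
      simpa using this
    · subst he
      exact absurd hl (hno _ _ _ _ hf')
    · exact absurd hl' (hno _ _ _ _ hf)
    · simp only [Piece.link.injEq, Prod.mk.injEq, true_and] at he
      exact he.1
  obtain ⟨rz, hrz⟩ : ∃ rz, ∀ r₁ ∈ T, r₁ = rz := by
    by_cases hT : T.Nonempty
    · obtain ⟨r₀, hr₀⟩ := hT
      exact ⟨r₀, fun r₁ h1 => hsub h1 hr₀⟩
    · exact ⟨r', fun r₁ h1 => absurd ⟨r₁, h1⟩ hT⟩
  obtain ⟨φ₀, hφ₀, hφ₀'⟩ := exists_aff r' rz d₀
  obtain ⟨φ₁, hφ₁, hφ₁'⟩ := exists_aff r' rz d₁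
  have hgtop := hW.topCut_gt
  -- the change vanishes on touched points
  have hinc : ∀ μ r₁, r₁ ∈ T → ((Pin Q' (f, μ) (i, r₁)) ∨ (μ = some false ∧ f = Fin.last S.nF ∧
      ∃ l, Piece.link S.gt (i, r₁) l ∈ Q')) → memInc μ φ₀ φ₁ r₁ = 0 := by
    intro μ r₁ hr₁ hpin
    have hz := hrz r₁ hr₁
    by_cases hne : r₁ = r'
    · subst hne
      rcases hpin with hpin | ⟨rfl, hf, l, hl⟩
      · cases μ with
        | none =>
          simp only [memInc, hφ₀, hφ₁]
          exact hd hpin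
        | some b =>
          cases b
          · simp only [memInc, hφ₀]
            exact h₀ hpin
          · simp only [memInc, hφ₁]
            exact h₁ hpin
      · simp only [memInc, hφ₀]
        exact hF hf l hl
    · have hne' : rz ≠ r' := fun h => hne (hz.trans h)
      have h3 := hφ₀' hne'
      have h4 := hφ₁' hne'
      rw [hz]
      cases μ with
      | none => simp [memInc, h3, h4]
      | some b => cases b <;> simp [memInc, h3, h4]
  refine ⟨θ.addZ f i φ₀ φ₁, ⟨?_, ?_⟩, rfl, fun p c h => chiV_addZ_ne θ f i φ₀ φ₁ p c (Or.inl h),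
    fun p c h => chiV_addZ_ne θ f i φ₀ φ₁ p c (Or.inr h), ?_, ?_⟩
  · rintro ⟨f₂, μ⟩ ⟨i₂, r₂⟩ hp
    by_cases h : f₂ = f ∧ i₂ = i
    · obtain ⟨rfl, rfl⟩ := h
      rw [chiV_addZ_same, hinc μ r₂ ?_ (Or.inl hp), add_zero]
      obtain ⟨e, he, hl⟩ := hp
      exact ⟨e, he, Or.inl ⟨μ, hl⟩⟩
    · apply chiV_addZ_ne
      by_contra h2
      push Not at h2
      exact h ⟨h2.1, h2.2⟩
  · intro g c l hl
    refine ⟨rfl, rfl, rfl, ?_⟩
    by_cases hg : g = S.gt
    · subst hg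
      obtain ⟨i₂, r₂⟩ := c
      rw [hW.shift_gt, hgtop]
      by_cases h : Fin.last S.nF = f ∧ i₂ = i
      · obtain ⟨rfl, rfl⟩ := h
        rw [chiV_addZ_same, hinc _ r₂ ?_ (Or.inr ⟨rfl, rfl, l, hl⟩), add_zero]
        exact ⟨_, hl, Or.inr ⟨rfl, l, rfl⟩⟩
      · apply chiV_addZ_ne
        by_contra h2
        push Not at h2
        exact h ⟨h2.1, h2.2⟩
    · rcases hp₂ : S.topCut g with ⟨f₂, μ⟩
      rcases hc₂ : S.shift g c with ⟨i₂, r₂⟩
      have hp : Pin Q' (f₂, μ) (i₂, r₂) := ⟨_, hl, Or.inr ⟨hg, hp₂.symm, hc₂.symm⟩⟩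
      by_cases h : f₂ = f ∧ i₂ = i
      · obtain ⟨rfl, rfl⟩ := h
        rw [chiV_addZ_same, hinc μ r₂ ?_ (Or.inl hp), add_zero]
        obtain ⟨e, he, hl⟩ := hp
        exact ⟨e, he, Or.inl ⟨μ, hl⟩⟩
      · apply chiV_addZ_ne
        by_contra h2
        push Not at h2
        exact h ⟨h2.1, h2.2⟩
  · rw [chiV_addZ_same]
    simp only [memInc, hφ₀]
  · rw [chiV_addZ_same]
    simp only [memInc, hφ₁]

/-- Set one member at one token to a given value, keeping all pinned tokens. -/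
lemma Wf.setVal (hW : Wf S s₀ gR pa Code) {Q' : Finset (Piece S)} {f : Fin (S.nF + 1)}
    {μ : Option Bool} {i : Fin ρ} {r' : V} (w : ZMod 2) (θ : Th S)
    (h : w ≠ θ.chiV (f, μ) (i, r') → ClassU Q' i ∧ ¬ Pin Q' (f, μ) (i, r') ∧
      (f = Fin.last S.nF → ∀ l, Piece.link S.gt (i, r') l ∉ Q')) :
    ∃ θ' : Th S, Keep Q' θ θ' ∧ θ'.Y = θ.Y ∧ (∀ p c, p.1 ≠ f → θ'.chiV p c = θ.chiV p c) ∧
      (∀ p c, c.1 ≠ i → θ'.chiV p c = θ.chiV p c) ∧ θ'.chiV (f, μ) (i, r') = w := by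
  classical
  by_cases hw : w = θ.chiV (f, μ) (i, r')
  · exact ⟨θ, Keep.refl _ _, rfl, fun _ _ _ => rfl, fun _ _ _ => rfl, hw.symm⟩
  obtain ⟨hcu, hnp, hF⟩ := h hw
  have hw' : w = θ.chiV (f, μ) (i, r') + 1 := by
    have key : ∀ a b : ZMod 2, a ≠ b → a = b + 1 := by decide
    exact key _ _ hw
  -- two pinned members of the family at the same token force a sum constraint
  have htwo : ∀ μ₁ μ₂ : Option Bool, μ₁ ≠ μ₂ → Pin Q' (f, μ₁) (i, r') → Pin Q' (f, μ₂) (i, r') →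
      ∀ μ₃, Pin Q' (f, μ₃) (i, r') := by
    rintro μ₁ μ₂ hne ⟨e₁, he₁, hl₁⟩ ⟨e₂, he₂, hl₂⟩ μ₃
    have hc₁ := (lnk_class hl₁).symm
    have hc₂ := (lnk_class hl₂).symm
    obtain rfl := hcu _ he₁ _ he₂ hc₁ hc₂
    obtain ⟨f', rfl, rfl⟩ := hW.lnk_member hl₁ hl₂ hne
    exact ⟨_, he₁, rfl, rfl⟩
  have hF' : f = Fin.last S.nF → ∀ (d₀ : ZMod 2) l, Piece.link S.gt (i, r') l ∈ Q' → d₀ = 0 :=
    fun hf d₀ l hl => absurd hl (hF hf l)
  cases μ with
  | none =>
    by_cases hp : Pin Q' (f, some false) (i, r')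
    · obtain ⟨θ', h1, h2, h3, h4, h5, h6⟩ := hW.setFam (d₀ := 0) (d₁ := 1) hcu (fun _ => rfl)
        (fun hp' => absurd (htwo (some false) (some true) (by simp) hp hp' none) hnp)
        (fun hp' => absurd hp' hnp) (fun hf l hl => hF' hf 0 l hl) θ
      refine ⟨θ', h1, h2, h3, h4, ?_⟩
      have h7 : ∀ c : Tok ρ V, θ'.chiV (f, none) c =
          θ'.chiV (f, some false) c + θ'.chiV (f, some true) c := by
        intro c
        simp [Th.chiV, Th.chiA]
      have h8 : ∀ c : Tok ρ V, θ.chiV (f, none) c =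
          θ.chiV (f, some false) c + θ.chiV (f, some true) c := by
        intro c
        simp [Th.chiV, Th.chiA]
      rw [h7, h5, h6, hw', h8, add_zero, add_assoc]
    · obtain ⟨θ', h1, h2, h3, h4, h5, h6⟩ := hW.setFam (d₀ := 1) (d₁ := 0) hcu
        (fun hp' => absurd hp' hp) (fun _ => rfl)
        (fun hp' => absurd hp' hnp) (fun hf l hl => hF' hf 1 l hl) θ
      refine ⟨θ', h1, h2, h3, h4, ?_⟩
      have h7 : ∀ c : Tok ρ V, θ'.chiV (f, none) c =
          θ'.chiV (f, some false) c + θ'.chiV (f, some true) c := by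
        intro c
        simp [Th.chiV, Th.chiA]
      have h8 : ∀ c : Tok ρ V, θ.chiV (f, none) c =
          θ.chiV (f, some false) c + θ.chiV (f, some true) c := by
        intro c
        simp [Th.chiV, Th.chiA]
      rw [h7, h5, h6, hw', h8, add_zero]
      ring
  | some b =>
    by_cases hp : Pin Q' (f, none) (i, r')
    · obtain ⟨θ', h1, h2, h3, h4, h5, h6⟩ := hW.setFam (d₀ := 1) (d₁ := 1) hcu
        (fun hp' => by
          cases b
          · exact absurd hp' hnp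
          · exact absurd (htwo (some false) none (by simp) hp' hp (some true)) hnp)
        (fun hp' => by
          cases b
          · exact absurd (htwo (some true) none (by simp) hp' hp (some false)) hnp
          · exact absurd hp' hnp)
        (fun _ => rfl) (fun hf l hl => hF' hf 1 l hl) θ
      refine ⟨θ', h1, h2, h3, h4, ?_⟩
      cases b
      · rw [h5, hw']
      · rw [h6, hw']
    · cases b with
      | false =>
        obtain ⟨θ', h1, h2, h3, h4, h5, h6⟩ := hW.setFam (d₀ := 1) (d₁ := 0) hcu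
          (fun hp' => absurd hp' hnp) (fun _ => rfl)
          (fun hp' => absurd hp' hp) (fun hf l hl => hF' hf 1 l hl) θ
        exact ⟨θ', h1, h2, h3, h4, by rw [h5, hw']⟩
      | true =>
        obtain ⟨θ', h1, h2, h3, h4, h5, h6⟩ := hW.setFam (d₀ := 0) (d₁ := 1) hcu
          (fun _ => rfl) (fun hp' => absurd hp' hnp)
          (fun hp' => absurd hp' hp) (fun hf l hl => hF' hf 0 l hl) θ
        exact ⟨θ', h1, h2, h3, h4, by rw [h6, hw']⟩

end Vale.Agent.Lib.P310.FC
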