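import Vale.Agent.Lib.P310.Full.Core.Graph
import Vale.Agent.Lib.P310.LinAlg

/-!
# Spoiler's derivations

Every derivable fact is a parity that `ρ`-WL equivalence would have to respect.
-/

namespace Vale.Agent.Lib.P310.FC

open Function

variable {ρ : ℕ} {V : Type} [AddCommGroup V] [Fintype V] [DecidableEq V] (S : Sys ρ V)
  [Numbered S]

lemma zmod2_add_self' (a : ZMod 2) : a + a = 0 := by revert a; decide

/-- The set of variables of a constraint does not depend on the values. -/
lemma map_fst_assign (b : ZMod 2) (e : Piece S) (α β : ZMod 2) :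
    (S.assign b e α β).map Prod.fst = (S.assign 0 e 0 0).map Prod.fst := by
  cases e with
  | link g c l =>
    by_cases h : l.val = 0
    · cases hb : S.bot g <;> simp [Sys.assign, Sys.botEntry, h, hb]
    · simp [Sys.assign, h]
  | tr g c => cases hb : S.bot g <;> simp [Sys.assign, Sys.botEntry, hb]
  | con f c => simp [Sys.assign]

/-- A variable occurs in a constraint. -/
def Occ (e : Piece S) (z : XVar S) : Prop := z ∈ (S.assign 0 e 0 0).map Prod.fst

variable {S}

lemma Occ.exists_val {e : Piece S} {z : XVar S} (h : Occ S e z) (b : ZMod 2) (α β : ZMod 2) :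
    ∃ w, (z, w) ∈ S.assign b e α β := by
  have h1 : z ∈ (S.assign b e α β).map Prod.fst := by
    rw [map_fst_assign]
    exact h
  obtain ⟨⟨z', w⟩, hm, hz⟩ := List.mem_map.mp h1
  simp only at hz
  subst hz
  exact ⟨w, hm⟩

lemma occ_of_mem {e : Piece S} {z : XVar S} {b α β : ZMod 2} {w : ZMod 2}
    (h : (z, w) ∈ S.assign b e α β) : Occ S e z := by
  unfold Occ
  rw [← map_fst_assign S b e α β]
  exact List.mem_map.mpr ⟨(z, w), h, rfl⟩

lemma assign_zero (e : Piece S) (z : XVar S) (w : ZMod 2) (h : (z, w) ∈ S.assign 0 e 0 0) :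
    w = 0 := by
  cases e with
  | link g c l =>
    by_cases h0 : l.val = 0
    · cases hb : S.bot g <;>
        simp_all [Sys.assign, Sys.botEntry] <;> tauto
    · simp_all [Sys.assign]; tauto
  | tr g c => cases hb : S.bot g <;> simp_all [Sys.assign, Sys.botEntry] <;> tauto
  | con f c => simp_all [Sys.assign]; tauto

/-- The zero vertex of a constraint. -/
def zv (e : Piece S) : Vtx S := ((e, 0, 0), none)

/-- Two constraints have a common variable. -/
def Common (e e' : Piece S) : Prop := ∃ z, Occ S e z ∧ Occ S e' z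

lemma adj_zv {e e' : Piece S} (hne : e ≠ e') (hc : Common e e') :
    (altGraph S 0).Adj (zv e) (zv e') := by
  obtain ⟨z, h1, h2⟩ := hc
  obtain ⟨w, hw⟩ := h1.exists_val 0 0 0
  obtain ⟨w', hw'⟩ := h2.exists_val 0 0 0
  refine ⟨hne, ⟨z, w, w', hw, hw'⟩, ?_⟩
  intro z1 w1 w1' h3 h4
  rw [assign_zero _ _ _ h3, assign_zero _ _ _ h4]

variable (S) in
/-- A position of the game. -/
abbrev SC {k : ℕ} (x y : Fin k → Vtx S) : Prop := SameColor (altGraph S 0) (altGraph S 1) x y

/-- The answer to a zero vertex is an element of the same constraint respecting the flag. -/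
lemma answer_of_zv {k : ℕ} (hk : 2 ≤ k) {x y : Fin k → Vtx S} (h : SC S x y) (j : Fin k)
    {e : Piece S} (hx : x j = zv e) :
    ∃ α β, y j = ((e, α, β), none) ∧ (S.flagged e → α = 0) := by
  classical
  obtain ⟨⟨e', α, β⟩, he', hcode⟩ := elem_of_elem S hk h j (e := (e, 0, 0)) hx
  obtain ⟨h1, h2⟩ := elemCode_eq S _ _ hcode
  simp only at h1 h2
  subst h1
  refine ⟨α, β, he', fun hf => ?_⟩
  by_contra hne
  exact (h2.mp ⟨hf, hne⟩).2 rfl

/-- Move one pebble to an adjacent zero vertex. -/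
lemma step {k : ℕ} (hk : 2 ≤ k) {x y : Fin k → Vtx S} (h : SC S x y) {j : Fin k}
    {e e' : Piece S} {α β : ZMod 2} (hx : x j = zv e) (hy : y j = ((e, α, β), none))
    (hne : e ≠ e') (hc : Common e e') :
    ∃ α' β', SC S (update x j (zv e')) (update y j ((e', α', β'), none)) ∧
      ∀ z w w', (z, w) ∈ S.assign 1 e α β → (z, w') ∈ S.assign 1 e' α' β' → w = w' := by
  classical
  obtain ⟨f, hf⟩ := h.exists_equiv
  have hs := hf (zv e') j
  obtain ⟨α', β', hy', -⟩ := answer_of_zv hk hs j (e := e') (by simp)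
  rw [update_self] at hy'
  refine ⟨α', β', ?_, ?_⟩
  · rw [← hy']
    exact hs
  · have hadj := (SameColor.adj_answer hk hf (zv e') j).mp (by rw [hx]; exact adj_zv hne hc)
    rw [hy, hy'] at hadj
    exact hadj.2.2

/-- Two pebbles on zero vertices of different constraints have answers that agree. -/
lemma agree {k : ℕ} {x y : Fin k → Vtx S} (h : SC S x y) {i j : Fin k}
    {e e' : Piece S} {α β α' β' : ZMod 2} (hx : x i = zv e) (hx' : x j = zv e')
    (hy : y i = ((e, α, β), none)) (hy' : y j = ((e', α', β'), none))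
    (hne : e ≠ e') (hc : Common e e') :
    ∀ z w w', (z, w) ∈ S.assign 1 e α β → (z, w') ∈ S.assign 1 e' α' β' → w = w' := by
  have hadj := (h.adj_iff i j).mp (by rw [hx, hx']; exact adj_zv hne hc)
  rw [hy, hy'] at hadj
  exact hadj.2.2

/-- Move all pebbles to adjacent zero vertices, one after the other. -/
lemma moveAll (hk : 2 ≤ ρ) {x y : Fin ρ → Vtx S} (h : SC S x y) (e e' : Fin ρ → Piece S)
    {α β : Fin ρ → ZMod 2} (hx : ∀ i, x i = zv (e i)) (hy : ∀ i, y i = ((e i, α i, β i), none))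
    (hne : ∀ i, e i ≠ e' i) (hc : ∀ i, Common (e i) (e' i)) :
    ∃ (x' y' : Fin ρ → Vtx S) (α' β' : Fin ρ → ZMod 2), SC S x' y' ∧ (∀ i, x' i = zv (e' i)) ∧
      (∀ i, y' i = ((e' i, α' i, β' i), none)) ∧
      ∀ i z w w', (z, w) ∈ S.assign 1 (e i) (α i) (β i) →
        (z, w') ∈ S.assign 1 (e' i) (α' i) (β' i) → w = w' := by
  classical
  have claim : ∀ A : Finset (Fin ρ), ∃ (x' y' : Fin ρ → Vtx S) (α' β' : Fin ρ → ZMod 2),
      SC S x' y' ∧ ∀ i, (i ∈ A → x' i = zv (e' i) ∧ y' i = ((e' i, α' i, β' i), none) ∧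
        ∀ z w w', (z, w) ∈ S.assign 1 (e i) (α i) (β i) →
          (z, w') ∈ S.assign 1 (e' i) (α' i) (β' i) → w = w') ∧
        (i ∉ A → x' i = x i ∧ y' i = y i) := by
    intro A
    induction A using Finset.induction_on with
    | empty =>
      exact ⟨x, y, 0, 0, h, fun i => ⟨fun hi => absurd hi (by simp), fun _ => ⟨rfl, rfl⟩⟩⟩
    | insert i₁ A hi₁ ih =>
      obtain ⟨x', y', α', β', hs, hi⟩ := ih
      obtain ⟨h1, h2⟩ := (hi i₁).2 hi₁
      obtain ⟨a, b, hnew, hag⟩ := step hk hs (j := i₁) (by rw [h1, hx]) (by rw [h2, hy])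
        (hne i₁) (hc i₁)
      refine ⟨_, _, update α' i₁ a, update β' i₁ b, hnew, fun i => ?_⟩
      by_cases hii : i = i₁
      · subst hii
        refine ⟨fun _ => ⟨by simp, by simp, ?_⟩, fun hn => absurd (Finset.mem_insert_self _ _) hn⟩
        simpa using hag
      · rw [update_of_ne hii, update_of_ne hii, update_of_ne hii, update_of_ne hii]
        refine ⟨fun hm => (hi i).1 ((Finset.mem_insert.mp hm).resolve_left hii), fun hm => ?_⟩
        exact (hi i).2 (fun hm' => hm (Finset.mem_insert_of_mem hm'))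
  obtain ⟨x', y', α', β', hs, hi⟩ := claim Finset.univ
  exact ⟨x', y', α', β', hs, fun i => ((hi i).1 (Finset.mem_univ i)).1,
    fun i => ((hi i).1 (Finset.mem_univ i)).2.1, fun i => ((hi i).1 (Finset.mem_univ i)).2.2⟩

/-- A parity known to Spoiler: at every position with pebbles on constraints containing the cut
variables of the tokens of a valuation, the answers have values adding up to `ν`. -/
def Known (p : Fin (S.nF + 1) × Option Bool) (s : Fin ρ → V) (ν : ZMod 2) : Prop :=
  ∀ (x y : Fin ρ → Vtx S) (e : Fin ρ → Piece S) (α β w : Fin ρ → ZMod 2), SC S x y →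
    (∀ i, x i = zv (e i)) → (∀ i, y i = ((e i, α i, β i), none)) →
    (∀ i, (XVar.cut p.1 p.2 (i, s i), w i) ∈ S.assign 1 (e i) (α i) (β i)) → ∑ i, w i = ν

/-- A position can be read: all pebbles on zero vertices have answers of this form. -/
lemma read (hk : 2 ≤ ρ) {x y : Fin ρ → Vtx S} (h : SC S x y) (e : Fin ρ → Piece S)
    (hx : ∀ i, x i = zv (e i)) :
    ∃ α β : Fin ρ → ZMod 2, (∀ i, y i = ((e i, α i, β i), none)) ∧
      ∀ i, S.flagged (e i) → α i = 0 := by
  choose α β h1 h2 using fun i => answer_of_zv hk h i (hx i)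
  exact ⟨α, β, h1, h2⟩

/-- Move all pebbles, keeping those already on their targets. A pebble with the same source and
target needs no move; here we use that a variable has one value in a local assignment. -/
lemma moveAll' (hk : 2 ≤ ρ) {x y : Fin ρ → Vtx S} (h : SC S x y) (e e' : Fin ρ → Piece S)
    {α β : Fin ρ → ZMod 2} (hx : ∀ i, x i = zv (e i)) (hy : ∀ i, y i = ((e i, α i, β i), none))
    (hc : ∀ i, e i ≠ e' i → Common (e i) (e' i)) :
    ∃ (x' y' : Fin ρ → Vtx S) (α' β' : Fin ρ → ZMod 2), SC S x' y' ∧ (∀ i, x' i = zv (e' i)) ∧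
      (∀ i, y' i = ((e' i, α' i, β' i), none)) ∧
      ∀ i, (e i = e' i ∧ α' i = α i ∧ β' i = β i) ∨
        ∀ z w w', (z, w) ∈ S.assign 1 (e i) (α i) (β i) →
          (z, w') ∈ S.assign 1 (e' i) (α' i) (β' i) → w = w' := by
  classical
  have claim : ∀ A : Finset (Fin ρ), ∃ (x' y' : Fin ρ → Vtx S) (α' β' : Fin ρ → ZMod 2),
      SC S x' y' ∧ ∀ i, (i ∈ A → x' i = zv (e' i) ∧ y' i = ((e' i, α' i, β' i), none) ∧
        ((e i = e' i ∧ α' i = α i ∧ β' i = β i) ∨ ∀ z w w',
          (z, w) ∈ S.assign 1 (e i) (α i) (β i) →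
          (z, w') ∈ S.assign 1 (e' i) (α' i) (β' i) → w = w')) ∧
        (i ∉ A → x' i = x i ∧ y' i = y i) := by
    intro A
    induction A using Finset.induction_on with
    | empty =>
      exact ⟨x, y, 0, 0, h, fun i => ⟨fun hi => absurd hi (by simp), fun _ => ⟨rfl, rfl⟩⟩⟩
    | insert i₁ A hi₁ ih =>
      obtain ⟨x', y', α', β', hs, hi⟩ := ih
      obtain ⟨h1, h2⟩ := (hi i₁).2 hi₁
      by_cases he : e i₁ = e' i₁
      · refine ⟨x', y', update α' i₁ (α i₁), update β' i₁ (β i₁), hs, fun i => ?_⟩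
        by_cases hii : i = i₁
        · subst hii
          refine ⟨fun _ => ⟨by rw [h1, hx, he], by
            rw [h2, hy, he]; simp, Or.inl ⟨he, by simp, by simp⟩⟩,
            fun hn => absurd (Finset.mem_insert_self _ _) hn⟩
        · rw [update_of_ne hii, update_of_ne hii]
          refine ⟨fun hm => (hi i).1 ((Finset.mem_insert.mp hm).resolve_left hii), fun hm => ?_⟩
          exact (hi i).2 (fun hm' => hm (Finset.mem_insert_of_mem hm'))
      · obtain ⟨a, b, hnew, hag⟩ := step hk hs (j := i₁) (by rw [h1, hx]) (by rw [h2, hy])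
          he (hc i₁ he)
        refine ⟨_, _, update α' i₁ a, update β' i₁ b, hnew, fun i => ?_⟩
        by_cases hii : i = i₁
        · subst hii
          refine ⟨fun _ => ⟨by simp, by simp, Or.inr ?_⟩,
            fun hn => absurd (Finset.mem_insert_self _ _) hn⟩
          simpa using hag
        · rw [update_of_ne hii, update_of_ne hii, update_of_ne hii, update_of_ne hii]
          refine ⟨fun hm => (hi i).1 ((Finset.mem_insert.mp hm).resolve_left hii), fun hm => ?_⟩
          exact (hi i).2 (fun hm' => hm (Finset.mem_insert_of_mem hm'))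
  obtain ⟨x', y', α', β', hs, hi⟩ := claim Finset.univ
  exact ⟨x', y', α', β', hs, fun i => ((hi i).1 (Finset.mem_univ i)).1,
    fun i => ((hi i).1 (Finset.mem_univ i)).2.1, fun i => ((hi i).1 (Finset.mem_univ i)).2.2⟩

/-- Transfer: a known parity holds at zero vertices, where it can be read from any constraint
containing the variables: the values at the new constraints are the same. -/
lemma Known.conj (hk : 2 ≤ ρ) {f : Fin S.nF} {s : Fin ρ → V} {ν₀ ν₁ : ZMod 2}
    (hfun : ∀ (e : Piece S) (z : XVar S) (α β w w' : ZMod 2), (z, w) ∈ S.assign 1 e α β →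
      (z, w') ∈ S.assign 1 e α β → w = w')
    (h₀ : Known (S := S) (f.castSucc, some false) s ν₀)
    (h₁ : Known (S := S) (f.castSucc, some true) s ν₁) :
    Known (S := S) (f.castSucc, none) s (ν₀ + ν₁) := by
  intro x y e α β w hs hx hy hw
  have hc : ∀ i, e i ≠ Piece.con f (i, s i) → Common (e i) (Piece.con f (i, s i)) := by
    intro i _
    refine ⟨XVar.cut f.castSucc none (i, s i), occ_of_mem (hw i), ?_⟩
    exact occ_of_mem (b := 0) (α := 0) (β := 0) (w := 0 + 0) (by simp [Sys.assign])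
  obtain ⟨x', y', α', β', hs', hx', hy', hag⟩ := moveAll' hk hs e (fun i => Piece.con f (i, s i))
    hx hy hc
  have hw' : ∀ i, w i = α' i + β' i := by
    intro i
    have hmem : (XVar.cut f.castSucc none (i, s i), α' i + β' i) ∈
        S.assign 1 (Piece.con f (i, s i)) (α' i) (β' i) := by simp [Sys.assign]
    rcases hag i with ⟨h1, h2, h3⟩ | h1
    · have h4 := hw i
      rw [h1, ← h2, ← h3] at h4
      exact hfun _ _ _ _ _ _ h4 hmem
    · exact h1 _ _ _ (hw i) hmem
  have h5 := h₀ x' y' _ α' β' α' hs' hx' hy' (fun i => by simp [Sys.assign])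
  have h6 := h₁ x' y' _ α' β' β' hs' hx' hy' (fun i => by simp [Sys.assign])
  rw [← h5, ← h6, ← Finset.sum_add_distrib]
  exact Finset.sum_congr rfl fun i _ => hw' i

lemma sum_twist (hρ : 0 < ρ) (g : Fin S.nG) (s : Fin ρ → V) :
    ∑ i, S.twist g (i, s i) = if g = S.gt then 1 else 0 := by
  by_cases hg : g = S.gt
  · rw [if_pos hg, Finset.sum_eq_single (⟨0, hρ⟩ : Fin ρ)]
    · simp [Sys.twist, hg]
    · intro i _ hi
      have : i.val ≠ 0 := fun h => hi (Fin.ext h)
      simp [Sys.twist, this]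
    · simp
  · simp [Sys.twist, hg]

lemma rightVar_of_lt (g : Fin S.nG) (c : Tok ρ V) (l : Fin (2 * ρ * S.m))
    (h : l.val + 1 < 2 * ρ * S.m) : S.rightVar g c l = XVar.mid g c ⟨l.val + 1, h⟩ := dif_pos h

lemma rightVar_of_last (g : Fin S.nG) (c : Tok ρ V) (l : Fin (2 * ρ * S.m))
    (h : ¬ l.val + 1 < 2 * ρ * S.m) : S.rightVar g c l = XVar.top g c := dif_neg h

/-- The bits at a common position of a valuation passing the gate cancel. -/
lemma level_sum (hk : 2 ≤ ρ) {g : Fin S.nG} {s : Fin ρ → V} (hs : S.InA g s)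
    {x y : Fin ρ → Vtx S} (h : SC S x y) (l : Fin (2 * ρ * S.m)) {α β : Fin ρ → ZMod 2}
    (hx : ∀ i, x i = zv (Piece.link g (i, s i) l))
    (hy : ∀ i, y i = ((Piece.link g (i, s i) l, α i, β i), none)) :
    ∑ i, S.v g (i, s i) l * β i = 0 := by
  have hcommon : ∀ i j, β i = β j := by
    intro i j
    by_cases hij : i = j
    · rw [hij]
    have hne : Piece.link g (i, s i) l ≠ Piece.link g (j, s j) l := by
      intro he
      simp only [Piece.link.injEq, Prod.mk.injEq] at he
      exact hij he.2.1.1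
    exact agree h (hx i) (hx j) (hy i) (hy j) hne
      ⟨XVar.bit g l, occ_of_mem (b := 0) (α := 0) (β := 0) (w := 0) (by simp [Sys.assign]),
        occ_of_mem (b := 0) (α := 0) (β := 0) (w := 0) (by simp [Sys.assign])⟩
      (XVar.bit g l) _ _ (by simp [Sys.assign]) (by simp [Sys.assign])
  have hi₀ : 0 < ρ := by omega
  rw [Finset.sum_congr rfl (fun i _ => by rw [hcommon i ⟨0, hi₀⟩]), ← Finset.sum_mul]
  have := hs ⟨l.val % S.m, Nat.mod_lt _ S.m_pos⟩
  simp only [Sys.v]
  rw [this, zero_mul]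

/-- The value of a known parity below a gate. -/
lemma bot_sum (hk : 2 ≤ ρ) {g : Fin S.nG} {s : Fin ρ → V} {ν : ZMod 2}
    (hb : ∀ p, S.bot g = some p → Known (S := S) p s ν) (hn : S.bot g = none → ν = 0)
    {x y : Fin ρ → Vtx S} (h : SC S x y) (e : Fin ρ → Piece S) (hx : ∀ i, x i = zv (e i))
    {α β : Fin ρ → ZMod 2} (hy : ∀ i, y i = ((e i, α i, β i), none))
    (hmem : ∀ p, S.bot g = some p → ∀ i, (XVar.cut p.1 p.2 (i, s i), α i) ∈
      S.assign 1 (e i) (α i) (β i))
    (hfl : S.bot g = none → ∀ i, S.flagged (e i)) : ∑ i, α i = ν := by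
  cases hbot : S.bot g with
  | none =>
    rw [hn hbot]
    refine Finset.sum_eq_zero fun i _ => ?_
    obtain ⟨a, b, h1, h2⟩ := answer_of_zv hk h i (hx i)
    have h3 := h1.symm.trans (hy i)
    simp only [Prod.mk.injEq, and_true, true_and] at h3
    rw [← h3.1]
    exact h2 (hfl hbot i)
  | some p => exact hb p hbot x y e α β α h hx hy (hmem p hbot)

/-- The gate rule. -/
lemma Known.gate (hk : 2 ≤ ρ)
    (hfun : ∀ (e : Piece S) (z : XVar S) (α β w w' : ZMod 2), (z, w) ∈ S.assign 1 e α β →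
      (z, w') ∈ S.assign 1 e α β → w = w')
    {g : Fin S.nG} {s : Fin ρ → V} {ν : ZMod 2} (hs : S.InA g s)
    (hb : ∀ p, S.bot g = some p → Known (S := S) p s ν) (hn : S.bot g = none → ν = 0) :
    Known (S := S) (S.topCut g) (fun i => s i + S.lam g i) (if g = S.gt then 1 else 0) := by
  intro x y e α β w hsc hx hy hw
  have hρ : 0 < ρ := by omega
  have hm := S.m_pos
  have hL : 2 ≤ 2 * ρ * S.m := by
    have : 1 * 1 ≤ ρ * S.m := Nat.mul_le_mul (by omega) hm
    rw [Nat.mul_assoc]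
    omega
  -- first to the transfer constraints
  have hc₁ : ∀ i, e i ≠ Piece.tr g (i, s i) → Common (e i) (Piece.tr g (i, s i)) := by
    intro i _
    refine ⟨_, occ_of_mem (hw i), ?_⟩
    exact occ_of_mem (b := 0) (α := 0) (β := 0) (w := 0) (by simp [Sys.assign, Sys.topCut, Sys.shift])
  obtain ⟨x₁, y₁, α₁, β₁, hs₁, hx₁, hy₁, hag₁⟩ := moveAll' hk hsc e (fun i => Piece.tr g (i, s i))
    hx hy hc₁
  have hw₁ : ∀ i, w i = β₁ i := by
    intro i
    have hmem : (XVar.cut (S.topCut g).1 (S.topCut g).2 (i, s i + S.lam g i), β₁ i) ∈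
        S.assign 1 (Piece.tr g (i, s i)) (α₁ i) (β₁ i) := by
      simp [Sys.assign, Sys.topCut, Sys.shift]
    rcases hag₁ i with ⟨h1, h2, h3⟩ | h1
    · have h4 := hw i
      rw [h1, ← h2, ← h3] at h4
      exact hfun _ _ _ _ _ _ h4 hmem
    · exact h1 _ _ _ (hw i) hmem
  have hsumα₁ : ∑ i, α₁ i = ν := by
    refine bot_sum hk hb hn hs₁ _ hx₁ hy₁ ?_ (fun hbot i => hbot)
    intro p hp i
    simp [Sys.assign, Sys.botEntry, hp]
  -- the descent along the chains
  set T : ZMod 2 := ∑ i, (α₁ i + β₁ i) with hT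
  set tt : ZMod 2 := ∑ i, S.twist g (i, s i) with htt
  have claim : ∀ (d l : ℕ) (hl : l < 2 * ρ * S.m), l + d + 1 = 2 * ρ * S.m →
      ∃ (x' y' : Fin ρ → Vtx S) (a b : Fin ρ → ZMod 2), SC S x' y' ∧
        (∀ i, x' i = zv (Piece.link g (i, s i) ⟨l, hl⟩)) ∧
        (∀ i, y' i = ((Piece.link g (i, s i) ⟨l, hl⟩, a i, b i), none)) ∧
        ∑ i, a i = T + (if l = 0 then tt else 0) := by
    intro d
    induction d with
    | zero =>
      intro l hl hld
      have hnl : ¬ (⟨l, hl⟩ : Fin (2 * ρ * S.m)).val + 1 < 2 * ρ * S.m := by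
        simp only
        omega
      have hl0 : l ≠ 0 := by omega
      have hc₂ : ∀ i, Common (Piece.tr g (i, s i)) (Piece.link g (i, s i) ⟨l, hl⟩) := by
        intro i
        refine ⟨XVar.top g (i, s i),
          occ_of_mem (b := 0) (α := 0) (β := 0) (w := 0 + 0) (by simp [Sys.assign]), ?_⟩
        refine occ_of_mem (b := 0) (α := 0) (β := 0) (w := 0 + S.v g (i, s i) ⟨l, hl⟩ * 0 + 0) ?_
        simp only [Sys.assign, rightVar_of_last g (i, s i) ⟨l, hl⟩ hnl]
        simp [hl0]
      obtain ⟨x₂, y₂, a, b, hs₂, hx₂, hy₂, hag₂⟩ := moveAll hk hs₁ _ _ hx₁ hy₁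
        (fun i => by simp) hc₂
      refine ⟨x₂, y₂, a, b, hs₂, hx₂, hy₂, ?_⟩
      have hval : ∀ i, α₁ i + β₁ i = a i + S.v g (i, s i) ⟨l, hl⟩ * b i := by
        intro i
        refine hag₂ i (XVar.top g (i, s i)) _ _ (by simp [Sys.assign]) ?_
        simp only [Sys.assign, rightVar_of_last g (i, s i) ⟨l, hl⟩ hnl]
        simp [hl0]
      have hlev := level_sum hk hs hs₂ ⟨l, hl⟩ hx₂ hy₂
      rw [if_neg hl0, add_zero, hT, Finset.sum_congr rfl (fun i _ => hval i),
        Finset.sum_add_distrib, hlev, add_zero]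
    | succ d ih =>
      intro l hl hld
      have hl1 : l + 1 < 2 * ρ * S.m := by omega
      obtain ⟨x₂, y₂, a, b, hs₂, hx₂, hy₂, hsum⟩ := ih (l + 1) hl1 (by omega)
      rw [if_neg (by omega), add_zero] at hsum
      have hc₂ : ∀ i, Common (Piece.link g (i, s i) ⟨l + 1, hl1⟩)
          (Piece.link g (i, s i) ⟨l, hl⟩) := by
        intro i
        refine ⟨XVar.mid g (i, s i) ⟨l + 1, hl1⟩,
          occ_of_mem (b := 0) (α := 0) (β := 0) (w := 0) (by simp [Sys.assign]), ?_⟩
        refine occ_of_mem (b := 0) (α := 0) (β := 0)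
          (w := 0 + S.v g (i, s i) ⟨l, hl⟩ * 0 + (if l = 0 then 0 * S.twist g (i, s i) else 0)) ?_
        simp only [Sys.assign, rightVar_of_lt g (i, s i) ⟨l, hl⟩ hl1]
        simp
      obtain ⟨x₃, y₃, a', b', hs₃, hx₃, hy₃, hag₃⟩ := moveAll hk hs₂ _ _ hx₂ hy₂
        (fun i => by simp) hc₂
      refine ⟨x₃, y₃, a', b', hs₃, hx₃, hy₃, ?_⟩
      have hval : ∀ i, a i = a' i + S.v g (i, s i) ⟨l, hl⟩ * b' i +
          (if l = 0 then S.twist g (i, s i) else 0) := by
        intro i
        refine hag₃ i (XVar.mid g (i, s i) ⟨l + 1, hl1⟩) _ _ (by simp [Sys.assign]) ?_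
        simp only [Sys.assign, rightVar_of_lt g (i, s i) ⟨l, hl⟩ hl1]
        simp
      have hlev := level_sum hk hs hs₃ ⟨l, hl⟩ hx₃ hy₃
      have h1 : T = ∑ i, a' i + (if l = 0 then tt else 0) := by
        rw [← hsum, Finset.sum_congr rfl (fun i _ => hval i), Finset.sum_add_distrib,
          Finset.sum_add_distrib, hlev, add_zero]
        congr 1
        by_cases hl0 : l = 0 <;> simp [hl0, htt]
      rw [h1, add_assoc, zmod2_add_self', add_zero]
  have hL0 : 0 < 2 * ρ * S.m := by omega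
  obtain ⟨x₂, y₂, a, b, hs₂, hx₂, hy₂, hsum⟩ := claim (2 * ρ * S.m - 1) 0 hL0 (by omega)
  rw [if_pos rfl] at hsum
  have hbot : ∑ i, a i = ν := by
    refine bot_sum hk hb hn hs₂ _ hx₂ hy₂ ?_ (fun hbot i => ⟨rfl, hbot⟩)
    intro p hp i
    simp [Sys.assign, Sys.botEntry, hp]
  rw [Finset.sum_congr rfl (fun i _ => hw₁ i), ← sum_twist hρ g s]
  have hT2 : T = ν + ∑ i, β₁ i := by
    rw [hT, Finset.sum_add_distrib, hsumα₁]
  rw [hbot, hT2] at hsum
  have h3 : ∀ a b c : ZMod 2, a = a + b + c → b = c := by decide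
  exact h3 _ _ _ hsum

end Vale.Agent.Lib.P310.FC
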