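import Vale.Agent.Lib.P310.Full.Core.Wf

/-!
# From local translations to `k`-WL equivalence
-/

namespace Vale.Agent.Lib.P310.FC

open Function

variable {ρ : ℕ} {V : Type} [AddCommGroup V] [Fintype V] [DecidableEq V] {S : Sys ρ V}
  [Numbered S]

/-- The translation of vertices given by offsets of the constraints. -/
def tauV (ofs : Piece S → ZMod 2 × ZMod 2) (w : Vtx S) : Vtx S :=
  ((w.1.1, w.1.2.1 + (ofs w.1.1).1, w.1.2.2 + (ofs w.1.1).2), w.2)

lemma tauV_tauV (ofs : Piece S → ZMod 2 × ZMod 2) (w : Vtx S) : tauV ofs (tauV ofs w) = w := by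
  obtain ⟨⟨e, a, b⟩, o⟩ := w
  simp [tauV, add_assoc, zmod2_add_self']

lemma tauV_injective (ofs : Piece S → ZMod 2 × ZMod 2) : Injective (tauV ofs) :=
  (LeftInverse.injective (tauV_tauV ofs))

/-- Offsets are good on a constraint, for a translation of the variables. -/
def GoodAt (Θ : XVar S → ZMod 2) (ofs : Piece S → ZMod 2 × ZMod 2) (e : Piece S) : Prop :=
  (∀ α β, S.assign 1 e (α + (ofs e).1) (β + (ofs e).2) =
    (S.assign 0 e α β).map (fun p => (p.1, p.2 + Θ p.1))) ∧ (S.flagged e → (ofs e).1 = 0)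

lemma GoodAt.mem_iff {Θ : XVar S → ZMod 2} {ofs : Piece S → ZMod 2 × ZMod 2} {e : Piece S}
    (h : GoodAt Θ ofs e) (α β w : ZMod 2) (z : XVar S) :
    (z, w) ∈ S.assign 0 e α β ↔ (z, w + Θ z) ∈ S.assign 1 e (α + (ofs e).1) (β + (ofs e).2) := by
  rw [h.1 α β, List.mem_map]
  constructor
  · intro hm
    exact ⟨(z, w), hm, rfl⟩
  · rintro ⟨⟨z', w'⟩, hm, he⟩
    simp only [Prod.mk.injEq] at he
    obtain ⟨rfl, h2⟩ := he
    have : w' = w := add_right_cancel h2
    rwa [← this]

lemma GoodAt.mem_iff' {Θ : XVar S → ZMod 2} {ofs : Piece S → ZMod 2 × ZMod 2} {e : Piece S}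
    (h : GoodAt Θ ofs e) (α β w : ZMod 2) (z : XVar S) :
    (z, w) ∈ S.assign 1 e (α + (ofs e).1) (β + (ofs e).2) ↔
      (z, w + Θ z) ∈ S.assign 0 e α β := by
  rw [h.mem_iff α β (w + Θ z) z, add_assoc, zmod2_add_self', add_zero]

lemma elemAdj_tau {Θ : XVar S → ZMod 2} {ofs : Piece S → ZMod 2 × ZMod 2} {x y : Elem S}
    (hx : GoodAt Θ ofs x.1) (hy : GoodAt Θ ofs y.1) :
    ElemAdj S 0 x y ↔
      ElemAdj S 1 (x.1, x.2.1 + (ofs x.1).1, x.2.2 + (ofs x.1).2)
        (y.1, y.2.1 + (ofs y.1).1, y.2.2 + (ofs y.1).2) := by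
  obtain ⟨e, a, b⟩ := x
  obtain ⟨e', a', b'⟩ := y
  unfold ElemAdj
  simp only
  refine and_congr Iff.rfl (and_congr ?_ ?_)
  · constructor
    · rintro ⟨z, w, w', h1, h2⟩
      exact ⟨z, _, _, (hx.mem_iff _ _ _ _).mp h1, (hy.mem_iff _ _ _ _).mp h2⟩
    · rintro ⟨z, w, w', h1, h2⟩
      exact ⟨z, _, _, (hx.mem_iff' _ _ _ _).mp h1, (hy.mem_iff' _ _ _ _).mp h2⟩
  · constructor
    · intro h z w w' h1 h2
      have := h z _ _ ((hx.mem_iff' _ _ _ _).mp h1) ((hy.mem_iff' _ _ _ _).mp h2)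
      exact add_right_cancel this
    · intro h z w w' h1 h2
      have := h z _ _ ((hx.mem_iff _ _ _ _).mp h1) ((hy.mem_iff _ _ _ _).mp h2)
      exact add_right_cancel this

lemma leafCount_tau {Θ : XVar S → ZMod 2} {ofs : Piece S → ZMod 2 × ZMod 2} {x : Elem S}
    (hx : GoodAt Θ ofs x.1) :
    leafCount S (x.1, x.2.1 + (ofs x.1).1, x.2.2 + (ofs x.1).2) = leafCount S x := by
  classical
  obtain ⟨e, a, b⟩ := x
  unfold leafCount elemCode
  simp only
  congr 3
  by_cases hf : S.flagged e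
  · rw [hx.2 hf, add_zero]
  · simp [hf]

lemma tauE_inj (ofs : Piece S → ZMod 2 × ZMod 2) {x y : Elem S}
    (h : (x.1, x.2.1 + (ofs x.1).1, x.2.2 + (ofs x.1).2) =
      (y.1, y.2.1 + (ofs y.1).1, y.2.2 + (ofs y.1).2)) : x = y := by
  obtain ⟨e, a, b⟩ := x
  obtain ⟨e', a', b'⟩ := y
  simp only [Prod.mk.injEq] at h
  obtain ⟨rfl, h2, h3⟩ := h
  rw [add_right_cancel h2, add_right_cancel h3]

lemma adj_tau {Θ : XVar S → ZMod 2} {ofs : Piece S → ZMod 2 × ZMod 2} {x y : Vtx S}
    (hx : GoodAt Θ ofs x.1.1) (hy : GoodAt Θ ofs y.1.1) :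
    (altGraph S 0).Adj x y ↔ (altGraph S 1).Adj (tauV ofs x) (tauV ofs y) := by
  obtain ⟨x, (_ | i)⟩ := x <;> obtain ⟨y, (_ | j)⟩ := y
  · exact elemAdj_tau hx hy
  · show (x = y ∧ j.val < leafCount S x) ↔
      ((x.1, x.2.1 + (ofs x.1).1, x.2.2 + (ofs x.1).2) =
        (y.1, y.2.1 + (ofs y.1).1, y.2.2 + (ofs y.1).2) ∧
        j.val < leafCount S (x.1, x.2.1 + (ofs x.1).1, x.2.2 + (ofs x.1).2))
    rw [leafCount_tau hx]
    refine and_congr ?_ Iff.rfl
    constructor
    · rintro rfl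
      rfl
    · exact tauE_inj ofs
  · show (x = y ∧ i.val < leafCount S y) ↔
      ((x.1, x.2.1 + (ofs x.1).1, x.2.2 + (ofs x.1).2) =
        (y.1, y.2.1 + (ofs y.1).1, y.2.2 + (ofs y.1).2) ∧
        i.val < leafCount S (y.1, y.2.1 + (ofs y.1).1, y.2.2 + (ofs y.1).2))
    rw [leafCount_tau hy]
    refine and_congr ?_ Iff.rfl
    constructor
    · rintro rfl
      rfl
    · exact tauE_inj ofs
  · exact Iff.rfl

/-- The constraints occupied by a tuple. -/
noncomputable def piecesOf {k : ℕ} (x : Fin k → Vtx S) : Finset (Piece S) :=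
  Finset.univ.image (fun j => (x j).1.1)

lemma card_piecesOf {k : ℕ} (x : Fin k → Vtx S) : (piecesOf x).card ≤ k := by
  classical
  refine Finset.card_image_le.trans ?_
  simp

lemma piecesOf_tau {k : ℕ} (x : Fin k → Vtx S) (ofs : Piece S → ZMod 2 × ZMod 2) :
    piecesOf (fun j => tauV ofs (x j)) = piecesOf x := rfl

/-- The abstract strategy: a relation between occupied constraints and offsets that gives good
translations and is closed under extension yields `k`-WL equivalence. -/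
theorem wlEquiv_of_strategy {k : ℕ} (hk : 1 ≤ k)
    (I : Finset (Piece S) → (Piece S → ZMod 2 × ZMod 2) → Prop)
    (hgood : ∀ Q ofs, I Q ofs → ∃ Θ : XVar S → ZMod 2, ∀ e ∈ Q, GoodAt Θ ofs e)
    (hext : ∀ Q ofs, I Q ofs → Q.card ≤ k → ∀ e, ∃ ω : ZMod 2 × ZMod 2, (e ∈ Q → ω = ofs e) ∧
      ∀ Q', Q' ⊆ Q → Q'.card < k → I (insert e Q') (update ofs e ω))
    (h0 : I ∅ (fun _ => 0)) : WLEquiv k (altGraph S 0) (altGraph S 1) := by
  classical
  have hbase : ∀ Q : Finset (Piece S), Q.card ≤ k → ∃ ofs, I Q ofs := by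
    intro Q
    induction Q using Finset.induction_on with
    | empty => exact fun _ => ⟨_, h0⟩
    | insert e Q₀ he ih =>
      intro hc
      rw [Finset.card_insert_of_notMem he] at hc
      obtain ⟨ofs, hofs⟩ := ih (by omega)
      obtain ⟨ω, -, hω⟩ := hext Q₀ ofs hofs (by omega) e
      exact ⟨_, hω Q₀ (Finset.Subset.refl _) (by omega)⟩
  have hbase' : ∀ Q : Finset (Piece S), ∃ ofs, Q.card ≤ k → I Q ofs := by
    intro Q
    by_cases hQ : Q.card ≤ k
    · obtain ⟨ofs, h⟩ := hbase Q hQ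
      exact ⟨ofs, fun _ => h⟩
    · exact ⟨0, fun h => absurd h hQ⟩
  choose ofsOf hofsOf using hbase'
  let R : (Fin k → Vtx S) → (Fin k → Vtx S) → Prop := fun x y =>
    ∃ ofs, I (piecesOf x) ofs ∧ ∀ j, y j = tauV ofs (x j)
  let Φ : (Fin k → Vtx S) → (Fin k → Vtx S) := fun x j => tauV (ofsOf (piecesOf x)) (x j)
  have hΦ : Involutive Φ := by
    intro x
    funext j
    show tauV (ofsOf (piecesOf (fun j => tauV (ofsOf (piecesOf x)) (x j))))
      (tauV (ofsOf (piecesOf x)) (x j)) = x j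
    rw [piecesOf_tau, tauV_tauV]
  refine wlEquiv_of_game R ?_ ?_ (Involutive.toPerm Φ hΦ) ?_
  · rintro x y ⟨ofs, hI, hy⟩
    obtain ⟨Θ, hΘ⟩ := hgood _ _ hI
    have hg : ∀ j, GoodAt Θ ofs (x j).1.1 := fun j =>
      hΘ _ (Finset.mem_image_of_mem (fun j => (x j).1.1) (Finset.mem_univ j))
    funext i j
    have h1 : x i = x j ↔ y i = y j := by rw [hy i, hy j, (tauV_injective ofs).eq_iff]
    have h2 : (altGraph S 0).Adj (x i) (x j) ↔ (altGraph S 1).Adj (y i) (y j) := by
      rw [hy i, hy j]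
      exact adj_tau (hg i) (hg j)
    exact Prod.ext (decide_eq_decide.mpr h1) (decide_eq_decide.mpr h2)
  · rintro x y ⟨ofs, hI, hy⟩
    have hcard := card_piecesOf x
    have hex := hext _ ofs hI hcard
    choose ω hω₁ hω₂ using hex
    let ofsN : Piece S → ZMod 2 × ZMod 2 := ω
    have hinv : Involutive (tauV (S := S) ofsN) := tauV_tauV ofsN
    refine ⟨Involutive.toPerm _ hinv, fun w i => ?_⟩
    show ∃ ofs', I (piecesOf (update x i w)) ofs' ∧ ∀ j,
      update y i (tauV ofsN w) j = tauV ofs' (update x i w j)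
    refine ⟨update ofs w.1.1 (ω w.1.1), ?_, ?_⟩
    · let Q' : Finset (Piece S) := (Finset.univ.erase i).image (fun j => (x j).1.1)
      have hQ' : Q' ⊆ piecesOf x := by
        intro e he
        obtain ⟨j, -, rfl⟩ := Finset.mem_image.mp he
        exact Finset.mem_image_of_mem (fun j => (x j).1.1) (Finset.mem_univ j)
      have hc' : Q'.card < k := by
        have h1 : Q'.card ≤ (Finset.univ.erase i).card := Finset.card_image_le
        rw [Finset.card_erase_of_mem (Finset.mem_univ i), Finset.card_univ, Fintype.card_fin] at h1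
        omega
      have hp : piecesOf (update x i w) = insert w.1.1 Q' := by
        ext e
        simp only [piecesOf, Finset.mem_image, Finset.mem_univ, true_and, Finset.mem_insert, Q',
          Finset.mem_erase, ne_eq, and_true]
        constructor
        · rintro ⟨j, rfl⟩
          by_cases hj : j = i
          · subst hj
            left
            simp
          · right
            exact ⟨j, hj, by simp [update_of_ne hj]⟩
        · rintro (rfl | ⟨j, hj, rfl⟩)
          · exact ⟨i, by simp⟩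
          · exact ⟨j, by simp [update_of_ne hj]⟩
      rw [hp]
      exact hω₂ _ _ hQ' hc'
    · intro j
      by_cases hj : j = i
      · subst hj
        simp only [update_self]
        simp [tauV, ofsN]
      · rw [update_of_ne hj, update_of_ne hj, hy j]
        by_cases he : (x j).1.1 = w.1.1
        · have hm : w.1.1 ∈ piecesOf x := by
            rw [← he]
            exact Finset.mem_image_of_mem (fun j => (x j).1.1) (Finset.mem_univ j)
          have h5 := hω₁ _ hm
          simp only [tauV, he, update_self, h5]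
        · simp only [tauV, update_of_ne he]
  · intro x
    exact ⟨ofsOf (piecesOf x), hofsOf _ (card_piecesOf x), fun _ => rfl⟩

end Vale.Agent.Lib.P310.FC
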