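import Vale.Agent.Lib.P310.Full.Core.Strategy
import Vale.Agent.Lib.P310.Full.Core.Correction

/-!
# Translations of the variables

Duplicator's state: for each family, input member and class an affine function of the value, and
for each gate a bit vector. This determines the translations of all constraints.
-/

namespace Vale.Agent.Lib.P310.FC

open Function

variable {ρ : ℕ} {V : Type} [AddCommGroup V] [Module (ZMod 2) V] [Fintype V] [DecidableEq V]

/-- Affine functions. -/
abbrev Aff (V : Type) [AddCommGroup V] [Module (ZMod 2) V] : Type :=
  ZMod 2 × Module.Dual (ZMod 2) V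

/-- The value of an affine function. -/
def Aff.eval (f : Aff V) (r : V) : ZMod 2 := f.1 + f.2 r

@[simp] lemma Aff.eval_add (f g : Aff V) (r : V) : (f + g).eval r = f.eval r + g.eval r := by
  simp only [Aff.eval, Prod.fst_add, Prod.snd_add, LinearMap.add_apply]
  ring

@[simp] lemma Aff.eval_zero (r : V) : (0 : Aff V).eval r = 0 := by
  simp [Aff.eval]

/-- Duplicator's state. -/
@[ext] structure Th (S : Sys ρ V) where
  Z : Fin (S.nF + 1) → Bool → Fin ρ → Aff V
  Y : Fin S.nG → Fin (2 * ρ * S.m) → ZMod 2

variable {S : Sys ρ V} [Numbered S]

/-- The affine function of a cut at a class: the output member is the sum of the inputs. -/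
def Th.chiA (θ : Th S) (p : Fin (S.nF + 1) × Option Bool) (i : Fin ρ) : Aff V :=
  match p.2 with
  | some b => θ.Z p.1 b i
  | none => θ.Z p.1 false i + θ.Z p.1 true i

/-- The translation of the variable of a cut at a token. -/
def Th.chiV (θ : Th S) (p : Fin (S.nF + 1) × Option Bool) (c : Tok ρ V) : ZMod 2 :=
  (θ.chiA p c.1).eval c.2

/-- The translation of an optional cut at a token: a missing cut is not translated. -/
def Th.chiO (θ : Th S) (o : Option (Fin (S.nF + 1) × Option Bool)) (c : Tok ρ V) : ZMod 2 :=
  match o with
  | none => 0
  | some p => θ.chiV p c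

/-- The prefix sum of the bits along a chain. -/
def Th.pre (θ : Th S) (g : Fin S.nG) (c : Tok ρ V) (l : Fin (2 * ρ * S.m)) : ZMod 2 :=
  prefixSum (S.v g c) (θ.Y g) l

/-- The total sum of the bits along a chain. -/
def Th.tot (θ : Th S) (g : Fin S.nG) (c : Tok ρ V) : ZMod 2 :=
  ∑ l, S.v g c l * θ.Y g l

/-- The defect of a chain: it must vanish on occupied chains. -/
def Th.D (θ : Th S) (g : Fin S.nG) (c : Tok ρ V) : ZMod 2 :=
  θ.chiV (S.topCut g) (S.shift g c) + θ.tot g c + S.twist g c

/-- The offsets of the constraints. -/
def Th.off (θ : Th S) : Piece S → ZMod 2 × ZMod 2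
  | .link g c l =>
      (θ.chiO (S.bot g) c + θ.pre g c l + (if l.val = 0 then 0 else S.twist g c), θ.Y g l)
  | .tr g c => (θ.chiO (S.bot g) c, θ.chiV (S.topCut g) (S.shift g c))
  | .con f c => (θ.chiV (f.castSucc, some false) c, θ.chiV (f.castSucc, some true) c)

/-- The translation of the variables. -/
def Th.Θ (θ : Th S) : XVar S → ZMod 2
  | .cut f μ c => θ.chiV (f, μ) c
  | .top g c => θ.chiO (S.bot g) c + θ.chiV (S.topCut g) (S.shift g c)
  | .mid g c l => θ.chiO (S.bot g) c + θ.pre g c l + S.twist g c
  | .bit g l => θ.Y g l

lemma Th.pre_zero (θ : Th S) (g : Fin S.nG) (c : Tok ρ V) {l : Fin (2 * ρ * S.m)}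
    (h : l.val = 0) : θ.pre g c l = 0 := prefixSum_first _ _ h

lemma Th.goodAt (θ : Th S) (e : Piece S)
    (hD : ∀ g c l, e = Piece.link g c l → θ.D g c = 0) : GoodAt θ.Θ θ.off e := by
  cases e with
  | link g c l =>
    have hDgc := hD g c l rfl
    constructor
    · intro α β
      by_cases hl0 : l.val = 0
      · have hp : θ.pre g c l = 0 := θ.pre_zero g c hl0
        by_cases hl : l.val + 1 < 2 * ρ * S.m
        · have hp1 : θ.pre g c ⟨l.val + 1, hl⟩ = θ.pre g c l + S.v g c l * θ.Y g l :=
            prefixSum_succ _ _ rfl
          have hr := rightVar_of_lt g c l hl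
          generalize (⟨l.val + 1, hl⟩ : Fin (2 * ρ * S.m)) = l' at hp1 hr
          cases hb : S.bot g with
          | none =>
            simp only [Sys.assign, hl0, if_true, Sys.botEntry, hb, Th.off, hr,
              List.nil_append, List.map_cons, List.map_nil, Th.Θ, hp, hp1, Th.chiO]
            simp only [Prod.mk.injEq, true_and, List.cons.injEq, and_true, one_mul, zero_add, add_zero, zero_mul]
            ring
          | some p =>
            simp only [Sys.assign, hl0, if_true, Sys.botEntry, hb, Th.off, hr,
              List.cons_append, List.nil_append, List.map_cons, List.map_nil, Th.Θ, hp, hp1, Th.chiO]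
            simp only [Prod.mk.injEq, true_and, List.cons.injEq, and_true, one_mul, zero_add, add_zero, zero_mul]
            ring
        · have hl1 : l.val + 1 = 2 * ρ * S.m := by
            have := l.isLt
            omega
          have htot : θ.pre g c l + S.v g c l * θ.Y g l = θ.tot g c := prefixSum_last _ _ hl1
          have hD' : θ.chiV (S.topCut g) (S.shift g c) = θ.tot g c + S.twist g c := by
            have h3 : ∀ a b c : ZMod 2, a + b + c = 0 → a = b + c := by decide
            exact h3 _ _ _ hDgc
          cases hb : S.bot g with
          | none =>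
            simp only [Sys.assign, hl0, if_true, Sys.botEntry, hb, Th.off, rightVar_of_last g c l hl,
              List.nil_append, List.map_cons, List.map_nil, Th.Θ, hp, Th.chiO, hD', ← htot]
            simp only [Prod.mk.injEq, true_and, List.cons.injEq, and_true, one_mul, zero_add, add_zero, zero_mul]
            ring
          | some p =>
            simp only [Sys.assign, hl0, if_true, Sys.botEntry, hb, Th.off, rightVar_of_last g c l hl,
              List.cons_append, List.nil_append, List.map_cons, List.map_nil, Th.Θ, hp, Th.chiO, hD', ← htot]
            simp only [Prod.mk.injEq, true_and, List.cons.injEq, and_true, one_mul, zero_add, add_zero, zero_mul]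
            ring
      · by_cases hl : l.val + 1 < 2 * ρ * S.m
        · have hp1 : θ.pre g c ⟨l.val + 1, hl⟩ = θ.pre g c l + S.v g c l * θ.Y g l :=
            prefixSum_succ _ _ rfl
          simp only [Sys.assign, hl0, if_false, Th.off, rightVar_of_lt g c l hl,
            List.cons_append, List.nil_append, List.map_cons, List.map_nil, Th.Θ, hp1]
          simp only [Prod.mk.injEq, true_and, List.cons.injEq, and_true, add_zero]
          ring
        · have hl1 : l.val + 1 = 2 * ρ * S.m := by
            have := l.isLt
            omega
          have htot : θ.pre g c l + S.v g c l * θ.Y g l = θ.tot g c := prefixSum_last _ _ hl1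
          have hD' : θ.chiV (S.topCut g) (S.shift g c) = θ.tot g c + S.twist g c := by
            have h3 : ∀ a b c : ZMod 2, a + b + c = 0 → a = b + c := by decide
            exact h3 _ _ _ hDgc
          simp only [Sys.assign, hl0, if_false, Th.off, rightVar_of_last g c l hl,
            List.cons_append, List.nil_append, List.map_cons, List.map_nil, Th.Θ, hD', ← htot]
          simp only [Prod.mk.injEq, true_and, List.cons.injEq, and_true, add_zero]
          ring
    · rintro ⟨h0, hb⟩
      simp only [Th.off, hb, Th.chiO, θ.pre_zero g c h0, h0, if_true]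
      simp
  | tr g c =>
    constructor
    · intro α β
      cases hb : S.bot g with
      | none =>
        simp only [Sys.assign, Sys.botEntry, hb, Th.off, List.nil_append, List.map_cons,
          List.map_nil, Th.Θ, Th.chiO, Sys.topCut]
        simp only [Prod.mk.injEq, true_and, List.cons.injEq, and_true, zero_add, add_zero]
        ring
      | some p =>
        simp only [Sys.assign, Sys.botEntry, hb, Th.off, List.cons_append, List.nil_append,
          List.map_cons, List.map_nil, Th.Θ, Th.chiO, Sys.topCut]
        simp only [Prod.mk.injEq, true_and, List.cons.injEq, and_true]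
        ring
    · intro hb
      have hb' : S.bot g = none := hb
      simp [Th.off, hb', Th.chiO]
  | con f c =>
    constructor
    · intro α β
      simp only [Sys.assign, Th.off, List.map_cons, List.map_nil, Th.Θ]
      have h : θ.chiV (f.castSucc, none) c =
          θ.chiV (f.castSucc, some false) c + θ.chiV (f.castSucc, some true) c := by
        simp [Th.chiV, Th.chiA]
      simp only [h, Prod.mk.injEq, true_and, List.cons.injEq, and_true]
      ring
    · intro hf
      exact hf.elim

end Vale.Agent.Lib.P310.FC
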